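import Vale.Agent.P105.Iter

namespace Vale.Agent.P105

open Real Finset Filter Topology

variable {β : ℝ} {α : ℂ}

lemma hc_pos_of_integral {x : ℝ} (h : IsIntegral ℤ x) : 0 < hc x := by
  unfold hc
  rw [abs_pos]
  intro h0
  obtain ⟨k, hk⟩ := Real.cos_eq_zero_iff.1 h0
  have hx : x = algebraMap ℚ ℝ ((2 * k + 1) / 2) := by
    have : π * x = π * ((2 * k + 1) / 2) := by rw [hk]; ring
    have := mul_left_cancel₀ pi_pos.ne' this
    simp [this]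
  rw [hx, isIntegral_algebraMap_iff (algebraMap ℚ ℝ).injective] at h
  obtain ⟨y, hy⟩ := IsIntegrallyClosed.isIntegral_iff.1 h
  have h2 : ((2 * y : ℤ) : ℚ) = ((2 * k + 1 : ℤ) : ℚ) := by
    push_cast
    simp only [algebraMap_int_eq, eq_intCast] at hy
    rw [hy]; ring
  have := Int.cast_injective h2
  omega

lemma integral_zpow (h1 : IsIntegral ℤ β) (h2 : IsIntegral ℤ β⁻¹) (m : ℤ) :
    IsIntegral ℤ (β ^ m) := by
  obtain ⟨n, rfl | rfl⟩ := Int.eq_nat_or_neg m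
  · rw [zpow_natCast]; exact h1.pow n
  · rw [zpow_neg, zpow_natCast, ← inv_pow]; exact h2.pow n

lemma exists_margin (hβ : 1 < β) (hα : ‖α‖ = 1) (ht : Tr β α 1 1 1)
    (h1 : IsIntegral ℤ β) (h2 : IsIntegral ℤ β⁻¹) :
    ∃ (γ γ₂ κ0 : ℝ) (z : ℂ) (M0 : ℕ), Tr β α γ γ₂ z ∧ 1 ≤ γ ∧ γ ≤ β ^ M0 ∧ |γ₂| ≤ 1 ∧
      ‖z‖ ≤ 1 / 100 ∧ 0 < κ0 ∧ κ0 ≤ 1 / 2 ∧
      ∀ m : ℤ, κ0 ≤ hc (γ * β ^ m) ∧ κ0 ≤ hc (γ₂ * β ^ (-m)) := by
  have hβ0 : 0 < β := by linarith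
  have hα0 : α ≠ 0 := by intro h; simp [h] at hα
  obtain ⟨n0, hn0⟩ := pow_unbounded_of_one_lt 100 hβ
  obtain ⟨M0, hM0, hM0p, hz0⟩ := exists_large hα (n0 + 700)
  have hb0 : 100 ≤ β ^ M0 := hn0.le.trans (pow_le_pow_right₀ hβ.le (by omega))
  have hz0' : ‖α ^ M0 - 1‖ ≤ 1 / 100 := by
    refine hz0.trans ?_
    have : (700 : ℝ) ≤ M0 := by exact_mod_cast (by omega : 700 ≤ M0)
    rw [div_le_div_iff₀ (by linarith) (by norm_num)]; linarith
  have t0 := ht.step hβ0.ne' hα0 M0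
  simp only [one_mul] at t0
  set γ := β ^ M0 - 1 with hγ
  set γ₂ := β ^ (-(M0 : ℤ)) - 1 with hγ₂
  set z := α ^ M0 - 1 with hz
  have hinv : β ^ (-(M0 : ℤ)) ≤ 1 / 100 := by
    rw [zpow_neg, zpow_natCast, inv_le_comm₀ (by positivity) (by norm_num)]; simpa using hb0
  have hinv0 : 0 < β ^ (-(M0 : ℤ)) := zpow_pos hβ0 _
  have hg2 : |γ₂| ≤ 1 := by rw [abs_le]; constructor <;> linarith
  have ha : ∀ m : ℤ, |γ * β ^ m| ≤ β ^ (M0 + m) := by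
    intro m
    have h3 : 0 < β ^ m := zpow_pos hβ0 _
    rw [abs_of_nonneg (by nlinarith), zpow_add₀ hβ0.ne', zpow_natCast]
    nlinarith
  have hb : ∀ m : ℤ, |γ₂ * β ^ (-m)| ≤ β ^ (-m) := by
    intro m
    have h3 : 0 < β ^ (-m) := zpow_pos hβ0 _
    rw [abs_mul, abs_of_pos h3]
    nlinarith
  have hia : ∀ m : ℤ, 0 < hc (γ * β ^ m) := fun m =>
    hc_pos_of_integral (((h1.pow M0).sub isIntegral_one).mul (integral_zpow h1 h2 m))
  have hib : ∀ m : ℤ, 0 < hc (γ₂ * β ^ (-m)) := fun m =>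
    hc_pos_of_integral (((integral_zpow h1 h2 _).sub isIntegral_one).mul (integral_zpow h1 h2 _))
  obtain ⟨κ0, hκ0, hκ1, hκ⟩ : ∃ κ0 : ℝ, 0 < κ0 ∧ κ0 ≤ 1 / 2 ∧
      ∀ m : ℤ, κ0 ≤ hc (γ * β ^ m) ∧ κ0 ≤ hc (γ₂ * β ^ (-m)) := by
    obtain ⟨m0, _, hmin⟩ := Finset.exists_min_image (Icc (-(2 * M0 : ℤ)) M0)
      (fun m => min (hc (γ * β ^ m)) (hc (γ₂ * β ^ (-m)))) ⟨0, by simp⟩
    refine ⟨min (1 / 2) (min (hc (γ * β ^ m0)) (hc (γ₂ * β ^ (-m0)))),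
      lt_min (by norm_num) (lt_min (hia _) (hib _)), min_le_left _ _, fun m => ?_⟩
    by_cases hm : m ∈ Icc (-(2 * M0 : ℤ)) M0
    · have := (min_le_right (1 / 2) _).trans (hmin m hm)
      exact ⟨this.trans (min_le_left _ _), this.trans (min_le_right _ _)⟩
    · have hn := t0.near hα m
      have key : Near (γ * β ^ m) (3 / 100) ∧ Near (γ₂ * β ^ (-m)) (3 / 100) := by
        rw [mem_Icc, not_and_or] at hm
        rcases hm with h | h
        · have h3 : |γ * β ^ m| ≤ 1 / 100 :=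
            (ha m).trans ((zpow_le_zpow_right₀ hβ.le (by omega)).trans hinv)
          have := hn.add (near_of_abs h3).neg
          rw [show γ * β ^ m + γ₂ * β ^ (-m) + -(γ * β ^ m) = γ₂ * β ^ (-m) by ring] at this
          exact ⟨(near_of_abs h3).mono (by norm_num), this.mono (by linarith)⟩
        · have h3 : |γ₂ * β ^ (-m)| ≤ 1 / 100 :=
            (hb m).trans ((zpow_le_zpow_right₀ hβ.le (by omega)).trans hinv)
          have := hn.add (near_of_abs h3).neg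
          rw [add_neg_cancel_right] at this
          exact ⟨this.mono (by linarith), (near_of_abs h3).mono (by norm_num)⟩
      have k1 := hc_ge_near key.1
      have k2 := hc_ge_near key.2
      exact ⟨(min_le_left _ _).trans (by linarith), (min_le_left _ _).trans (by linarith)⟩
  exact ⟨γ, γ₂, κ0, z, M0, t0, by linarith, by linarith, hg2, hz0', hκ0, hκ1, hκ⟩

lemma small_facts {x : ℝ} (h0 : 0 < x) (h : x ≤ 1 / 10 ^ 7) :
    x ^ 4 ≤ 7 * x ^ 2 ∧ 2 * (7 * x ^ 2) ≤ x ∧ 7 * x ^ 2 ≤ 1 / 10 ^ 13 ∧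
      9 ^ 4 * 7 ^ 7 * x ^ 2 ≤ 1 := by
  have h2 : x ^ 2 ≤ 1 / 10 ^ 14 := by
    calc x ^ 2 ≤ (1 / 10 ^ 7) ^ 2 := pow_le_pow_left₀ h0.le h 2
      _ = _ := by norm_num
  refine ⟨?_, by nlinarith, by linarith, by linarith⟩
  have : x ^ 4 = x ^ 2 * x ^ 2 := by ring
  rw [this]
  exact mul_le_mul_of_nonneg_right (by linarith) (by positivity)

lemma exists_first (hβ : 1 < β) (hα : ‖α‖ = 1) (ht : Tr β α 1 1 1)
    (h1 : IsIntegral ℤ β) (h2 : IsIntegral ℤ β⁻¹) :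
    ∃ (κ γ γ₂ B : ℝ) (z : ℂ) (M0 M : ℕ), St β α κ γ γ₂ z (M0 + M) (7 / M) B ∧ κ ≤ 1 / 2 ∧
      100 * (7 / M) ≤ κ ∧ M0 + 10 ^ 8 ≤ M ∧ ‖α ^ M - 1‖ ≤ 7 / M := by
  have hβ0 : 0 < β := by linarith
  have hα0 : α ≠ 0 := by intro h; simp [h] at hα
  obtain ⟨γ, γ₂, κ0, z, M0, t0, hγ1, hγ2, hg2, hz0', hκ0, hκ1, hκ⟩ :=
    exists_margin hβ hα ht h1 h2
  have ha : ∀ m : ℤ, |γ * β ^ m| ≤ β ^ (M0 + m) := by
    intro m
    have h3 : 0 < β ^ m := zpow_pos hβ0 _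
    rw [abs_of_nonneg (by nlinarith), zpow_add₀ hβ0.ne', zpow_natCast]
    nlinarith
  have hb : ∀ m : ℤ, |γ₂ * β ^ (-m)| ≤ β ^ (-m) := by
    intro m
    have h3 : 0 < β ^ (-m) := zpow_pos hβ0 _
    rw [abs_mul, abs_of_pos h3]
    nlinarith
  obtain ⟨n, hn⟩ := pow_unbounded_of_one_lt (β ^ M0 * 100 / κ0) hβ
  obtain ⟨N1, hN1⟩ : ∃ N1 : ℕ, ∀ M ≥ N1, (M : ℝ) ≤ β ^ M := by
    have := (tendsto_pow_const_div_const_pow_of_one_lt 1 hβ).eventually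
      (eventually_le_nhds (by norm_num : (0 : ℝ) < 1))
    obtain ⟨N1, hN1⟩ := eventually_atTop.1 this
    refine ⟨N1, fun M hM => ?_⟩
    have := hN1 M hM
    rwa [pow_one, div_le_one (pow_pos hβ0 _)] at this
  obtain ⟨N2, hN2⟩ := exists_nat_gt (1400 / κ0)
  obtain ⟨M, hM, hMp, hz1⟩ := exists_large hα (2 * n + N1 + N2 + M0 + 10 ^ 8)
  have hM8 : (10 : ℝ) ^ 8 ≤ M := by exact_mod_cast (by omega : 10 ^ 8 ≤ M)
  have hMκ : 1400 / M ≤ κ0 := by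
    have : (N2 : ℝ) ≤ M := by exact_mod_cast (by omega : N2 ≤ M)
    rw [div_lt_iff₀ hκ0] at hN2
    rw [div_le_iff₀ (by positivity)]
    nlinarith
  have hMβ : (M : ℝ) ≤ β ^ M := hN1 M (by omega)
  have hsm : β ^ ((M0 : ℤ) + -n) ≤ κ0 / 100 := by
    rw [zpow_add₀ hβ0.ne', zpow_natCast, zpow_neg, zpow_natCast, ← div_eq_mul_inv,
      div_le_iff₀ (pow_pos hβ0 _)]
    rw [div_lt_iff₀ hκ0] at hn
    nlinarith
  have t1 := t0.step hβ0.ne' hα0 M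
  have hz1' : ‖z * (α ^ M - 1)‖ ≤ 7 / M := by
    rw [norm_mul]
    have := mul_le_mul hz0' hz1 (norm_nonneg _) (by norm_num)
    have h7 : (0 : ℝ) < 7 / M := by positivity
    linarith
  have hmar : ∀ m : ℤ, κ0 / 2 + 20 * (7 / M) ≤ hc (γ * (β ^ M - 1) * β ^ m) := by
    intro m
    have e7 : (1400 : ℝ) / M = 200 * (7 / M) := by ring
    have h7 : (0 : ℝ) < 7 / M := by positivity
    by_cases hm : m ≤ -n
    · have e : γ * (β ^ M - 1) * β ^ m = γ * β ^ (m + M) + -(γ * β ^ m) := by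
        rw [zpow_add₀ hβ0.ne', zpow_natCast]; ring
      have h3 : |γ * β ^ m| ≤ κ0 / 100 :=
        (ha m).trans ((zpow_le_zpow_right₀ hβ.le (by omega)).trans hsm)
      have := hc_add_ge (x := γ * β ^ (m + M)) (near_of_abs h3).neg
      rw [e]
      nlinarith [(hκ (m + M)).1, Real.pi_lt_four]
    · have h3 : |γ₂ * β ^ (-(m + M))| ≤ κ0 / 100 :=
        (hb _).trans ((zpow_le_zpow_right₀ hβ.le (by omega)).trans hsm)
      have h4 := (t1.near hα m).add (near_of_abs h3).neg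
      have e : γ * (β ^ M - 1) * β ^ m = γ₂ * β ^ (-m) + (γ * (β ^ M - 1) * β ^ m +
          γ₂ * (β ^ (-(M : ℤ)) - 1) * β ^ (-m) + -(γ₂ * β ^ (-(m + M)))) := by
        rw [neg_add, zpow_add₀ hβ0.ne']; ring
      have := hc_add_ge (x := γ₂ * β ^ (-m)) h4
      rw [← e] at this
      have h5 : π * (2 * ‖z * (α ^ M - 1)‖ + κ0 / 100) ≤ 4 * (2 * (7 / M) + κ0 / 100) :=
        mul_le_mul Real.pi_lt_four.le (by linarith) (by positivity) (by norm_num)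
      linarith [(hκ m).2]
  have hMβ2 : 2 ≤ β ^ M := by linarith
  have s1 : St β α (κ0 / 2) (γ * (β ^ M - 1)) (γ₂ * (β ^ (-(M : ℤ)) - 1)) (z * (α ^ M - 1))
      (M0 + M) (7 / M) (-((3 * (M0 + M) + 1 : ℕ) * log (κ0 / 2))) := by
    refine ⟨t1, by nlinarith, ?_, ?_, hz1', by positivity, ?_, fun m _ => hmar m, ?_⟩
    · rw [pow_add]
      exact mul_le_mul (by linarith) (by linarith) (by linarith) (pow_pos hβ0 _).le
    · rw [abs_mul]
      have h5 : 0 < β ^ (-(M : ℤ)) := zpow_pos hβ0 _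
      have h6 : β ^ (-(M : ℤ)) ≤ 1 := zpow_le_one_of_nonpos₀ hβ.le (by omega)
      have h7 : |β ^ (-(M : ℤ)) - 1| ≤ 1 := by rw [abs_le]; constructor <;> linarith
      exact mul_le_one₀ hg2 (abs_nonneg _) h7
    · calc β ^ (-((M0 + M : ℕ) : ℤ)) ≤ β ^ (-(M : ℤ)) :=
            zpow_le_zpow_right₀ hβ.le (by push_cast; omega)
        _ ≤ 7 / M := by
            rw [zpow_neg, zpow_natCast, inv_le_comm₀ (by positivity) (by positivity), inv_div,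
              div_le_iff₀ (by norm_num)]
            linarith
    · rw [neg_neg, Real.exp_nat_mul, Real.exp_log (by positivity)]
      have hcard : (Icc (-(2 * ((M0 + M : ℕ) : ℤ))) ((M0 + M : ℕ) : ℤ)).card =
          3 * (M0 + M) + 1 := by rw [Int.card_Icc]; omega
      rw [← hcard, ← Finset.prod_const]
      refine Finset.prod_le_prod (fun _ _ => by positivity) (fun m _ => ?_)
      have := hmar m
      have h7 : (0 : ℝ) < 7 / M := by positivity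
      linarith
  have e7 : (1400 : ℝ) / M = 200 * (7 / M) := by ring
  exact ⟨_, _, _, _, _, M0, M, s1, by linarith, by linarith, by omega, hz1⟩

lemma exists_good (hβ : 1 < β) (hα : ‖α‖ = 1) (ht : Tr β α 1 1 1)
    (h1 : IsIntegral ℤ β) (h2 : IsIntegral ℤ β⁻¹) :
    ∃ κ δ B, κ ≤ 1 / 2 ∧ Good β α κ δ B := by
  obtain ⟨κ, γ, γ₂, B, z, M0, M, s1, hκ, hκ2, hM, hz1⟩ := exists_first hβ hα ht h1 h2
  have hM8 : (10 : ℝ) ^ 8 ≤ M := by exact_mod_cast (by omega : 10 ^ 8 ≤ M)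
  have hη : ‖α ^ (7 * M) - 1‖ ≤ 49 / M := by
    refine (norm_pow_mul_sub hα M 7).trans ?_
    have : (49 : ℝ) / M = 7 * (7 / M) := by ring
    rw [this]; push_cast; linarith
  have hx : (7 : ℝ) / M ≤ 1 / 10 ^ 7 := by
    rw [div_le_div_iff₀ (by positivity) (by positivity)]; linarith
  have hx0 : (0 : ℝ) < 7 / M := by positivity
  obtain ⟨f1, f2, f3, f4⟩ := small_facts hx0 hx
  have s2 := s1.step hβ hα hκ hκ2 (M := 7 * M) (by omega) hη
    (δ' := 7 * (7 / M) ^ 2) (le_of_eq (by ring)) f1 f2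
  refine ⟨κ, _, _, hκ, _, _, _, _, s2, ?_, f3, by linarith⟩
  have h9 : ((M0 + M + 7 * M : ℕ) : ℝ) ≤ 9 * M := by exact_mod_cast (by omega)
  calc ((M0 + M + 7 * M : ℕ) : ℝ) ^ 4 * (7 * (7 / M) ^ 2) ^ 3
      ≤ (9 * M) ^ 4 * (7 * (7 / M) ^ 2) ^ 3 := mul_le_mul_of_nonneg_right
        (pow_le_pow_left₀ (by positivity) h9 4) (by positivity)
    _ = 9 ^ 4 * 7 ^ 7 * (7 / M) ^ 2 := by field_simp
    _ ≤ 1 := f4

end Vale.Agent.P105
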