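import Vale.Agent.P105.Defs

namespace Vale.Agent.P105

open Real Finset MeasureTheory
open scoped ENNReal

instance : IsProbabilityMeasure coin := ⟨by simp [coin, ENNReal.inv_two_add_inv_two]⟩

/-- The coin tossing measure. -/
noncomputable def PP : Measure (ℕ → Bool) := Measure.infinitePi (fun _ : ℕ => coin)

instance : IsProbabilityMeasure PP := by unfold PP; infer_instance

lemma sgn_not (b : Bool) : sgn (!b) = -sgn b := by cases b <;> simp [sgn]

lemma abs_sgn (b : Bool) : |sgn b| = 1 := by cases b <;> simp [sgn]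

lemma cos_sgn (b : Bool) (x : ℝ) : cos (sgn b * x) = cos x := by cases b <;> simp [sgn]

@[fun_prop] lemma measurable_sgn (j : ℕ) : Measurable (fun w : ℕ → Bool => sgn (w j)) :=
  (measurable_of_countable sgn).comp (measurable_pi_apply j)

lemma coin_not : coin.map (fun b => !b) = coin := by
  unfold coin
  rw [Measure.map_add _ _ (measurable_of_countable _), Measure.map_smul, Measure.map_smul,
    Measure.map_dirac' (measurable_of_countable _), Measure.map_dirac' (measurable_of_countable _),
    add_comm]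
  rfl

lemma flip_pres (a : ℕ) :
    PP.map (fun w i => if i = a then !(w i) else w i) = PP := by
  unfold PP
  rw [Measure.infinitePi_map_pi (fun _ : ℕ => coin) (f := fun i b => if i = a then !b else b)
    (fun _ => measurable_of_countable _)]
  congr 1
  ext1 i
  by_cases h : i = a
  · simp [h, coin_not]
  · simp [h]

lemma integrable_bdd {f : (ℕ → Bool) → ℝ} (hf : Measurable f) (C : ℝ) (h : ∀ w, |f w| ≤ C) :
    Integrable f PP :=
  Integrable.of_bound hf.aestronglyMeasurable C (Filter.Eventually.of_forall h)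

lemma int_cos (S : Finset ℕ) (x : ℕ → ℝ) :
    ∫ w, cos (∑ j ∈ S, sgn (w j) * x j) ∂PP = ∏ j ∈ S, cos (x j) := by
  induction S using Finset.induction_on with
  | empty => simp
  | insert a S ha ih =>
    simp only [Finset.sum_insert ha, Finset.prod_insert ha]
    have hm : Measurable (fun (w : ℕ → Bool) i => if i = a then !(w i) else w i) := by
      refine measurable_pi_lambda _ fun i => ?_
      exact (measurable_of_countable (fun b : Bool => if i = a then !b else b)).comp
        (measurable_pi_apply i)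
    have h1 : ∫ w, cos (sgn (w a) * x a + ∑ j ∈ S, sgn (w j) * x j) ∂PP =
        ∫ w, cos (-(sgn (w a) * x a) + ∑ j ∈ S, sgn (w j) * x j) ∂PP := by
      conv_lhs => rw [← flip_pres a]
      rw [integral_map hm.aemeasurable (Measurable.aestronglyMeasurable (by fun_prop))]
      congr 1
      ext w
      congr 2
      · simp [sgn_not]
      · refine Finset.sum_congr rfl fun j hj => ?_
        have hja : j ≠ a := by rintro rfl; exact ha hj
        simp [hja]
    have h2 : ∫ w, cos (sgn (w a) * x a + ∑ j ∈ S, sgn (w j) * x j) ∂PP +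
        ∫ w, cos (-(sgn (w a) * x a) + ∑ j ∈ S, sgn (w j) * x j) ∂PP =
        2 * (cos (x a) * ∏ j ∈ S, cos (x j)) := by
      rw [← integral_add (integrable_bdd (by fun_prop) 1 fun _ => abs_cos_le_one _)
        (integrable_bdd (by fun_prop) 1 fun _ => abs_cos_le_one _), ← ih, ← mul_assoc,
        ← integral_const_mul]
      congr 1
      ext w
      rw [cos_add, cos_add, cos_neg, sin_neg, cos_sgn]
      ring
    linarith

lemma int_cos_mul {S T : Finset ℕ} (h : Disjoint S T) (x y : ℕ → ℝ) :
    ∫ w, cos (∑ j ∈ S, sgn (w j) * x j) * cos (∑ j ∈ T, sgn (w j) * y j) ∂PP =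
      (∏ j ∈ S, cos (x j)) * ∏ j ∈ T, cos (y j) := by
  have key : ∀ e : ℝ, (e = 1 ∨ e = -1) →
      ∫ w, cos (∑ j ∈ S, sgn (w j) * x j + e * ∑ j ∈ T, sgn (w j) * y j) ∂PP =
      (∏ j ∈ S, cos (x j)) * ∏ j ∈ T, cos (y j) := by
    intro e he
    have := int_cos (S ∪ T) (fun j => if j ∈ S then x j else e * y j)
    simp only [Finset.sum_union h, Finset.prod_union h] at this
    convert this using 2
    · ext w
      congr 2
      · exact Finset.sum_congr rfl fun j hj => by rw [if_pos hj]
      · rw [Finset.mul_sum]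
        refine Finset.sum_congr rfl fun j hj => ?_
        rw [if_neg (Finset.disjoint_right.1 h hj)]; ring
    · exact Finset.prod_congr rfl fun j hj => by rw [if_pos hj]
    · refine Finset.prod_congr rfl fun j hj => ?_
      rw [if_neg (Finset.disjoint_right.1 h hj)]
      rcases he with rfl | rfl <;> simp
  have k1 := key 1 (Or.inl rfl)
  have k2 := key (-1) (Or.inr rfl)
  have h2 : ∫ w, cos (∑ j ∈ S, sgn (w j) * x j + 1 * ∑ j ∈ T, sgn (w j) * y j) ∂PP +
      ∫ w, cos (∑ j ∈ S, sgn (w j) * x j + -1 * ∑ j ∈ T, sgn (w j) * y j) ∂PP =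
      2 * ∫ w, cos (∑ j ∈ S, sgn (w j) * x j) * cos (∑ j ∈ T, sgn (w j) * y j) ∂PP := by
    rw [← integral_add (integrable_bdd (by fun_prop) 1 fun _ => abs_cos_le_one _)
      (integrable_bdd (by fun_prop) 1 fun _ => abs_cos_le_one _), ← integral_const_mul]
    congr 1
    ext w
    rw [one_mul, neg_one_mul, cos_add, cos_add, cos_neg, sin_neg]
    ring
  linarith

lemma one_sub_prod_le (S : Finset ℕ) (c : ℕ → ℝ) (h : ∀ j, |c j| ≤ 1) :
    1 - ∏ j ∈ S, c j ≤ ∑ j ∈ S, (1 - c j) := by
  induction S using Finset.induction_on with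
  | empty => simp
  | insert a S ha ih =>
    rw [Finset.sum_insert ha, Finset.prod_insert ha]
    have h1 : |∏ j ∈ S, c j| ≤ 1 := by
      rw [Finset.abs_prod]
      exact Finset.prod_le_one (fun _ _ => abs_nonneg _) (fun j _ => h j)
    have := abs_le.1 h1
    have := abs_le.1 (h a)
    nlinarith

lemma int_two_sub (S : Finset ℕ) (x : ℕ → ℝ) :
    ∫ w, (2 - 2 * cos (∑ j ∈ S, sgn (w j) * x j)) ∂PP ≤ ∑ j ∈ S, x j ^ 2 := by
  rw [integral_sub (integrable_const _) ((integrable_bdd (by fun_prop) 1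
    fun _ => abs_cos_le_one _).const_mul 2), integral_const_mul, int_cos]
  have h1 := one_sub_prod_le S (fun j => cos (x j)) fun _ => abs_cos_le_one _
  have h2 : ∑ j ∈ S, (1 - cos (x j)) ≤ ∑ j ∈ S, x j ^ 2 / 2 :=
    Finset.sum_le_sum fun j _ => by linarith [Real.one_sub_sq_div_two_le_cos (x := x j)]
  rw [← Finset.sum_div] at h2
  simp only [integral_const, probReal_univ, smul_eq_mul, one_mul]
  linarith

/-- The random series. -/
noncomputable def YY (l : ℝ) (w : ℕ → Bool) : ℝ := ∑' n, sgn (w n) * l ^ n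

lemma summable_Y {l : ℝ} (h0 : 0 ≤ l) (h1 : l < 1) (w : ℕ → Bool) :
    Summable (fun n => sgn (w n) * l ^ n) :=
  Summable.of_norm_bounded (summable_geometric_of_lt_one h0 h1) fun n => by
    rw [Real.norm_eq_abs, abs_mul, abs_sgn, one_mul, abs_of_nonneg (pow_nonneg h0 n)]

lemma abs_Y_le {l : ℝ} (h0 : 0 ≤ l) (h1 : l < 1) (w : ℕ → Bool) : |YY l w| ≤ (1 - l)⁻¹ := by
  rw [← tsum_geometric_of_lt_one h0 h1, ← Real.norm_eq_abs]
  refine tsum_of_norm_bounded (summable_geometric_of_lt_one h0 h1).hasSum fun n => ?_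
  rw [Real.norm_eq_abs, abs_mul, abs_sgn, one_mul, abs_of_nonneg (pow_nonneg h0 n)]

lemma measurable_Y {l : ℝ} (h0 : 0 ≤ l) (h1 : l < 1) : Measurable (YY l) := by
  refine measurable_of_tendsto_metrizable
    (f := fun N (w : ℕ → Bool) => ∑ n ∈ range N, sgn (w n) * l ^ n) (fun N => by fun_prop) ?_
  rw [tendsto_pi_nhds]
  exact fun w => (summable_Y h0 h1 w).hasSum.tendsto_sum_nat

lemma Y_split {l : ℝ} (h0 : 0 ≤ l) (h1 : l < 1) (w : ℕ → Bool) (n : ℕ) :
    YY l w = ∑ j ∈ range n, sgn (w j) * l ^ j + l ^ n * YY l (fun j => w (j + n)) := by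
  unfold YY
  rw [← (summable_Y h0 h1 w).sum_add_tsum_nat_add n, ← tsum_mul_left]
  congr 2
  ext j
  ring

lemma sq_sum_le {X : Type*} [MeasurableSpace X] (μ : Measure X) (K : ℕ) (g : ℕ → X → ℝ)
    (hi : ∀ i j, Integrable (fun x => g i x * g j x) μ) {a b : ℝ} (hb : 0 ≤ b)
    (h1 : ∀ i < K, ∫ x, g i x * g i x ∂μ ≤ a)
    (h2 : ∀ i < K, ∀ j < K, i ≠ j → ∫ x, g i x * g j x ∂μ ≤ b) :
    ∫ x, (∑ i ∈ range K, g i x) ^ 2 ∂μ ≤ K * a + K ^ 2 * b := by
  simp_rw [sq, Finset.sum_mul_sum]
  rw [integral_finsetSum _ fun i _ => integrable_finsetSum _ fun j _ => hi i j]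
  calc ∑ i ∈ range K, ∫ x, ∑ j ∈ range K, g i x * g j x ∂μ
      ≤ ∑ i ∈ range K, (a + K * b) := by
        refine Finset.sum_le_sum fun i hi' => ?_
        rw [integral_finsetSum _ fun j _ => hi i j]
        calc ∑ j ∈ range K, ∫ x, g i x * g j x ∂μ
            ≤ ∑ j ∈ range K, ((if j = i then a else 0) + b) := by
              refine Finset.sum_le_sum fun j hj => ?_
              by_cases hij : j = i
              · rw [if_pos hij, hij]; linarith [h1 i (mem_range.1 hi')]
              · rw [if_neg hij, zero_add]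
                exact h2 i (mem_range.1 hi') j (mem_range.1 hj) (Ne.symm hij)
          _ = a + K * b := by
              rw [Finset.sum_add_distrib, Finset.sum_ite_eq', if_pos hi']; simp
    _ = K * a + K * K * b := by simp; ring

end Vale.Agent.P105
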