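import Mathlib

namespace Vale.Agent.P105

open MeasureTheory
open scoped ENNReal

/-- The fair coin. -/
noncomputable def coin : Measure Bool :=
  (1 / 2 : ℝ≥0∞) • Measure.dirac true + (1 / 2 : ℝ≥0∞) • Measure.dirac false

/-- The sign attached to a coin toss. -/
def sgn (b : Bool) : ℝ := if b then 1 else -1

/-- The unbiased Bernoulli convolution: the law of `∑ ε_n l^n` for independent fair signs. -/
noncomputable def bernoulliConv (l : ℝ) : Measure ℝ :=
  (Measure.infinitePi (fun _ : ℕ => coin)).map (fun w : ℕ → Bool => ∑' n, sgn (w n) * l ^ n)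

/-- Full mass on a Borel set of Lebesgue measure zero. -/
def IsSingular (μ : Measure ℝ) : Prop :=
  ∃ s : Set ℝ, MeasurableSet s ∧ volume s = 0 ∧ μ s = 1

/-- Pisot numbers. -/
def IsPisot (x : ℝ) : Prop :=
  1 < x ∧ IsIntegral ℤ x ∧
    ∀ z : ℂ, Polynomial.aeval z (minpoly ℚ x) = 0 → z ≠ (x : ℂ) → ‖z‖ < 1

end Vale.Agent.P105
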