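import Vale.Agent.P105.Step

namespace Vale.Agent.P105

open Real Finset

variable {β : ℝ} {α : ℂ}

lemma dirichlet (hα : ‖α‖ = 1) {Q : ℕ} (hQ : 0 < Q) :
    ∃ M : ℕ, 0 < M ∧ M ≤ Q ∧ ‖α ^ M - 1‖ ≤ 7 / (Q + 1) := by
  obtain ⟨k, hk0, hkQ, hk⟩ := Real.exists_nat_abs_mul_sub_round_le (α.arg / (2 * π)) hQ
  refine ⟨k, hk0, hkQ, ?_⟩
  set j := round ((k : ℝ) * (α.arg / (2 * π)))
  have h1 : α = Complex.exp (α.arg * Complex.I) := by
    conv_lhs => rw [← Complex.norm_mul_exp_arg_mul_I α, hα]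
    simp
  have h2 : α ^ k = Complex.exp (Complex.I * ((k * α.arg - 2 * π * j : ℝ) : ℂ)) := by
    rw [h1, ← Complex.exp_nat_mul, ← h1]
    push_cast
    rw [show Complex.I * (k * α.arg - 2 * π * j) = k * (α.arg * Complex.I) - j * (2 * π * Complex.I)
      by ring, Complex.exp_sub, Complex.exp_int_mul_two_pi_mul_I, div_one]
  rw [h2]
  refine Real.norm_exp_I_mul_ofReal_sub_one_le.trans ?_
  have h3 : (k * α.arg - 2 * π * j : ℝ) = 2 * π * (k * (α.arg / (2 * π)) - j) := by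
    field_simp
  rw [h3, Real.norm_eq_abs, abs_mul, abs_of_pos (by positivity : 0 < 2 * π)]
  calc 2 * π * |k * (α.arg / (2 * π)) - j| ≤ 7 * (1 / (Q + 1)) :=
        mul_le_mul (by linarith [Real.pi_lt_d2]) hk (abs_nonneg _) (by norm_num)
    _ = _ := by ring

lemma norm_pow_mul_sub (hα : ‖α‖ = 1) (M j : ℕ) : ‖α ^ (j * M) - 1‖ ≤ j * ‖α ^ M - 1‖ := by
  induction j with
  | zero => simp
  | succ j ih =>
    have : α ^ ((j + 1) * M) - 1 = α ^ (j * M) * (α ^ M - 1) + (α ^ (j * M) - 1) := by ring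
    rw [this]
    refine (norm_add_le _ _).trans ?_
    rw [norm_mul, norm_pow, hα, one_pow, one_mul]
    push_cast; linarith

lemma exists_large (hα : ‖α‖ = 1) (A : ℕ) : ∃ M : ℕ, A ≤ M ∧ 0 < M ∧ ‖α ^ M - 1‖ ≤ 7 / M := by
  by_cases h : ∃ M : ℕ, 0 < M ∧ α ^ M = 1
  · obtain ⟨M, hM, h1⟩ := h
    refine ⟨(A + 1) * M, by nlinarith, by positivity, ?_⟩
    rw [mul_comm, pow_mul, h1]; simp; positivity
  · push Not at h
    have hpos : ∀ M ∈ Icc 1 (A + 1), 0 < ‖α ^ M - 1‖ := fun M hM =>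
      norm_pos_iff.2 (sub_ne_zero.2 (h M (mem_Icc.1 hM).1))
    obtain ⟨M0, hM0, hmin⟩ := Finset.exists_min_image (Icc 1 (A + 1)) (fun M => ‖α ^ M - 1‖)
      ⟨1, by simp⟩
    obtain ⟨Q, hQ⟩ := exists_nat_gt (7 / ‖α ^ M0 - 1‖)
    obtain ⟨M, hM, hMQ, hb⟩ := dirichlet hα (Q := Q + 1) (by omega)
    have hp := hpos M0 hM0
    refine ⟨M, ?_, hM, hb.trans ?_⟩
    · by_contra hc
      have := hmin M (mem_Icc.2 ⟨hM, by omega⟩)
      rw [div_lt_iff₀ hp] at hQ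
      have h2 := this.trans hb
      rw [le_div_iff₀ (by positivity)] at h2
      push_cast at h2
      nlinarith
    · apply div_le_div_of_nonneg_left (by norm_num) (by exact_mod_cast hM)
      have : (M : ℝ) ≤ (Q + 1 : ℕ) := by exact_mod_cast hMQ
      linarith

/-- The invariant of the iteration. -/
def Good (β : ℝ) (α : ℂ) (κ δ B : ℝ) : Prop :=
  ∃ γ γ₂ z L, St β α κ γ γ₂ z L δ B ∧ (L : ℝ) ^ 4 * δ ^ 3 ≤ 1 ∧ δ ≤ 1 / 10 ^ 13 ∧ 100 * δ ≤ κ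

lemma St.mono {κ γ γ₂ : ℝ} {z : ℂ} {L : ℕ} {δ B B' : ℝ} (s : St β α κ γ γ₂ z L δ B)
    (h : B ≤ B') : St β α κ γ γ₂ z L δ B' :=
  { s with prod := (Real.exp_le_exp.2 (by linarith)).trans s.prod }

lemma St.one_le_L {κ γ γ₂ : ℝ} {z : ℂ} {L : ℕ} {δ B : ℝ} (s : St β α κ γ γ₂ z L δ B)
    (h : δ < 1) : 1 ≤ L := by
  by_contra hc
  have : L = 0 := by omega
  have h2 := s.small
  simp [this] at h2
  linarith

lemma Good.step (hβ : 1 < β) (hα : ‖α‖ = 1) {κ δ B : ℝ} (hκ : κ ≤ 1 / 2)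
    (g : Good β α κ δ B) :
    ∃ δ', δ' ^ 8 ≤ δ ^ 17 ∧ Good β α κ δ' (2 * B + (160 / κ + 2880)) := by
  obtain ⟨γ, γ₂, z, L, s, hL, hδ1, hδκ⟩ := g
  have hδ := s.pos
  have hκ0 : 0 < κ := by linarith
  have hL1 : (1 : ℝ) ≤ L := by exact_mod_cast s.one_le_L (by linarith)
  have hLδ : L * δ ≤ 1 := by
    have : (L * δ) ^ 4 ≤ 1 := by
      calc (L * δ) ^ 4 = (L ^ 4 * δ ^ 3) * δ := by ring
        _ ≤ 1 * 1 := mul_le_mul hL (by linarith) hδ.le (by norm_num)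
        _ = 1 := by ring
    exact (pow_le_one_iff_of_nonneg (by positivity) (by norm_num)).1 this
  have hQ1 : (1 : ℝ) ≤ 1 / δ ^ 2 := by
    rw [le_div_iff₀ (by positivity)]; nlinarith
  obtain ⟨M0, hM0, hM0Q, hb⟩ := dirichlet hα (Q := ⌊1 / δ ^ 2⌋₊) (Nat.floor_pos.2 hQ1)
  have hb' : ‖α ^ M0 - 1‖ ≤ 7 * δ ^ 2 := by
    refine hb.trans ?_
    have := Nat.lt_floor_add_one (1 / δ ^ 2)
    rw [div_le_iff₀ (by positivity)]
    rw [div_lt_iff₀ (by positivity)] at this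
    nlinarith
  have hM0' : M0 * δ ^ 2 ≤ 1 := by
    have h1 : (M0 : ℝ) ≤ 1 / δ ^ 2 :=
      le_trans (by exact_mod_cast hM0Q) (Nat.floor_le (by positivity))
    rwa [le_div_iff₀ (by positivity)] at h1
  have hB : ∀ M : ℕ, (L + M : ℝ) * δ ^ 2 ≤ 2 → 2 * (B + (3 * L + 1) * (20 * δ / κ)) +
      360 * δ ^ 2 * (3 * (L + M) + 1) ≤ 2 * B + (160 / κ + 2880) := by
    intro M hM
    have h1 : (3 * L + 1) * (20 * δ / κ) ≤ 80 / κ := by
      rw [← mul_div_assoc]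
      apply div_le_div_of_nonneg_right _ hκ0.le
      nlinarith
    have h2 : δ ^ 2 ≤ 1 := by nlinarith
    have h3 : (160 : ℝ) / κ = 2 * (80 / κ) := by ring
    nlinarith
  have h8 : ∀ δ' : ℝ, 0 ≤ δ' → δ' ^ 4 ≤ 35 ^ 4 * δ ^ 9 → δ' ^ 8 ≤ δ ^ 17 := by
    intro δ' h0 h
    calc δ' ^ 8 = (δ' ^ 4) ^ 2 := by ring
      _ ≤ (35 ^ 4 * δ ^ 9) ^ 2 := pow_le_pow_left₀ (by positivity) h 2
      _ = (35 ^ 8 * δ) * δ ^ 17 := by ring
      _ ≤ 1 * δ ^ 17 := mul_le_mul_of_nonneg_right (by norm_num at hδ1 ⊢; linarith) (by positivity)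
      _ = _ := by ring
  have hδ3 : δ ^ 3 ≤ 1 / 10 ^ 13 := by
    have : δ ^ 3 ≤ δ := pow_le_of_le_one hδ.le (by linarith) (by norm_num)
    linarith
  by_cases hc : 3 * L + 1 ≤ M0
  · have hd : 2 * (7 * δ ^ 3) ≤ δ := by nlinarith
    have hLM : (L + M0 : ℝ) * δ ^ 2 ≤ 2 := by nlinarith
    refine ⟨7 * δ ^ 3, h8 _ (by positivity) ?_, _, _, _, _,
      (s.step hβ hα hκ hδκ hc hb' (le_of_eq (by ring)) (by nlinarith [pow_pos hδ 3]) hd).mono
        (hB M0 hLM), ?_, by linarith, by linarith⟩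
    · calc (7 * δ ^ 3) ^ 4 = (7 ^ 4 * δ ^ 3) * δ ^ 9 := by ring
        _ ≤ _ := mul_le_mul_of_nonneg_right (by linarith) (by positivity)
    · push_cast
      calc (L + M0 : ℝ) ^ 4 * (7 * δ ^ 3) ^ 3 = ((L + M0) * δ ^ 2) ^ 4 * (343 * δ) := by ring
        _ ≤ 2 ^ 4 * (343 * δ) := mul_le_mul_of_nonneg_right
            (pow_le_pow_left₀ (by positivity) hLM 4) (by positivity)
        _ ≤ 1 := by linarith
  · set j := (3 * L + 1) / M0 + 1 with hj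
    have hj1 : 3 * L + 1 ≤ j * M0 := by
      have := Nat.lt_div_mul_add (a := 3 * L + 1) hM0
      rw [hj, add_mul, one_mul]; omega
    have hj2 : j * M0 ≤ 8 * L := by
      have := Nat.div_mul_le_self (3 * L + 1) M0
      have h2 : 1 ≤ L := by exact_mod_cast hL1
      rw [hj, add_mul, one_mul]; omega
    have hj3 : j ≤ 5 * L := by
      have := Nat.div_le_self (3 * L + 1) M0
      have h2 : 1 ≤ L := by exact_mod_cast hL1
      omega
    have hj2' : ((j * M0 : ℕ) : ℝ) ≤ 8 * L := by exact_mod_cast hj2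
    have hj3' : (j : ℝ) ≤ 5 * L := by exact_mod_cast hj3
    have hη : ‖α ^ (j * M0) - 1‖ ≤ 35 * L * δ ^ 2 := by
      refine (norm_pow_mul_sub hα M0 j).trans ?_
      calc (j : ℝ) * ‖α ^ M0 - 1‖ ≤ (5 * L) * (7 * δ ^ 2) :=
            mul_le_mul hj3' hb' (norm_nonneg _) (by positivity)
        _ = _ := by ring
    have hd : 2 * (35 * L * δ ^ 3) ≤ δ := by
      have : 2 * (35 * L * δ ^ 3) = (L * δ) * (70 * δ) * δ := by ring
      rw [this]
      have : (L * δ) * (70 * δ) ≤ 1 * 1 := mul_le_mul hLδ (by linarith) (by positivity) (by norm_num)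
      nlinarith
    have hLM : (L + (j * M0 : ℕ) : ℝ) * δ ^ 2 ≤ 2 := by
      have : (L + (j * M0 : ℕ) : ℝ) * δ ^ 2 ≤ 9 * L * δ ^ 2 :=
        mul_le_mul_of_nonneg_right (by linarith) (by positivity)
      nlinarith
    refine ⟨35 * L * δ ^ 3, h8 _ (by positivity) ?_, _, _, _, _,
      (s.step hβ hα hκ hδκ hj1 hη (le_of_eq (by ring)) ?_ hd).mono
        (hB _ hLM), ?_, by linarith, by linarith⟩
    · calc (35 * L * δ ^ 3) ^ 4 = 35 ^ 4 * δ ^ 9 * (L ^ 4 * δ ^ 3) := by ring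
        _ ≤ 35 ^ 4 * δ ^ 9 * 1 := mul_le_mul_of_nonneg_left hL (by positivity)
        _ = _ := by ring
    · have : δ ^ 4 = δ * δ ^ 3 := by ring
      rw [this]
      exact mul_le_mul_of_nonneg_right (by linarith) (by positivity)
    · have h1 : ((L + j * M0 : ℕ) : ℝ) ≤ 9 * L := by push_cast at hj2' ⊢; linarith
      calc ((L + j * M0 : ℕ) : ℝ) ^ 4 * (35 * L * δ ^ 3) ^ 3
          ≤ (9 * L) ^ 4 * (35 * L * δ ^ 3) ^ 3 := mul_le_mul_of_nonneg_right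
            (pow_le_pow_left₀ (by positivity) h1 4) (by positivity)
        _ = (9 ^ 4 * 35 ^ 3 * δ ^ 3) * (L ^ 7 * δ ^ 6) := by ring
        _ ≤ 1 * (L ^ 8 * δ ^ 6) := mul_le_mul (by linarith) (mul_le_mul_of_nonneg_right
            (pow_le_pow_right₀ hL1 (by norm_num)) (by positivity)) (by positivity) (by norm_num)
        _ = (L ^ 4 * δ ^ 3) ^ 2 := by ring
        _ ≤ 1 := pow_le_one₀ (by positivity) hL

lemma Good.iter (hβ : 1 < β) (hα : ‖α‖ = 1) {κ δ B : ℝ} (hκ : κ ≤ 1 / 2)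
    (g : Good β α κ δ B) (k : ℕ) :
    ∃ δ', (17 / 8) ^ k * (-log δ) ≤ -log δ' ∧
      Good β α κ δ' (2 ^ k * (B + (160 / κ + 2880)) - (160 / κ + 2880)) := by
  induction k with
  | zero => exact ⟨δ, by simp, by simpa using g⟩
  | succ k ih =>
    obtain ⟨δ1, h1, g1⟩ := ih
    obtain ⟨δ2, h2, g2⟩ := g1.step hβ hα hκ
    have p1 : 0 < δ1 := by obtain ⟨_, _, _, _, s, _⟩ := g1; exact s.pos
    have p2 : 0 < δ2 := by obtain ⟨_, _, _, _, s, _⟩ := g2; exact s.pos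
    refine ⟨δ2, ?_, ?_⟩
    · have := Real.log_le_log (pow_pos p2 8) h2
      rw [Real.log_pow, Real.log_pow] at this
      push_cast at this
      rw [pow_succ]
      nlinarith
    · convert g2 using 1
      ring

/-- The output of the construction. -/
lemma Good.final (hβ : 1 < β) (hα : ‖α‖ = 1) {κ δ B : ℝ} (hκ : κ ≤ 1 / 2)
    (g : Good β α κ δ B) {ε : ℝ} (hε : 0 < ε) :
    ∃ δ' B' ρ, Good β α κ δ' B' ∧ 0 < ρ ∧ ρ ≤ ε ∧ δ' ≤ ρ ^ 16 ∧ ρ ≤ exp (-B') := by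
  have hδ : 0 < δ ∧ δ ≤ 1 / 10 ^ 13 ∧ 100 * δ ≤ κ := by
    obtain ⟨_, _, _, _, s, _, h1, h2⟩ := g; exact ⟨s.pos, h1, h2⟩
  have hκ0 : 0 < κ := by linarith [hδ.1, hδ.2.2]
  have hu : 0 < -log δ := by
    have := Real.log_neg hδ.1 (by linarith [hδ.2.1])
    linarith
  set D := 160 / κ + 2880 with hD
  have hD0 : 0 < D := by positivity
  set X := max (max (B + D) (-log ε)) 0 with hX
  obtain ⟨k, hk⟩ := pow_unbounded_of_one_lt (16 * X / (-log δ)) (by norm_num : (1 : ℝ) < 17 / 16)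
  rw [div_lt_iff₀ hu] at hk
  obtain ⟨δ', h1, g'⟩ := g.iter hβ hα hκ k
  have p' : 0 < δ' := by obtain ⟨_, _, _, _, s, _⟩ := g'; exact s.pos
  have h2 : (2 : ℝ) ^ k * (16 * X) ≤ -log δ' := by
    refine le_trans ?_ h1
    rw [show (17 / 8 : ℝ) = 2 * (17 / 16) by norm_num, mul_pow, mul_assoc]
    exact mul_le_mul_of_nonneg_left hk.le (by positivity)
  have hX0 : 0 ≤ X := le_max_right _ _
  have hX1 : B + D ≤ X := (le_max_left _ _).trans (le_max_left _ _)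
  have hX2 : -log ε ≤ X := (le_max_right _ _).trans (le_max_left _ _)
  have hk1 : (1 : ℝ) ≤ 2 ^ k := one_le_pow₀ (by norm_num)
  refine ⟨δ', _, exp (-(2 ^ k * X)), g', exp_pos _, ?_, ?_, ?_⟩
  · rw [← Real.exp_log hε]
    apply Real.exp_le_exp.2
    nlinarith
  · rw [← Real.exp_nat_mul, ← Real.exp_log p']
    apply Real.exp_le_exp.2
    push_cast
    linarith
  · apply Real.exp_le_exp.2
    have : (2 : ℝ) ^ k * (B + D) ≤ 2 ^ k * X := mul_le_mul_of_nonneg_left hX1 (by positivity)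
    linarith

end Vale.Agent.P105
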