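import Vale.Agent.P105.Scale

namespace Vale.Agent.P105

open Real Finset MeasureTheory Filter

variable {β : ℝ} {α : ℂ} {κ γ γ₂ : ℝ} {z : ℂ} {L : ℕ} {δ B : ℝ}

lemma prob_bound (hβ : 1 < β) (hα : ‖α‖ = 1) (s : St β α κ γ γ₂ z L δ B) (K : ℕ) :
    ∃ σ : ℕ → ℝ, (∀ i, |σ i| ≤ 1) ∧
      ∫ w, (∑ i ∈ range K, σ i * cos (π * γ * β ^ ((i + 1) * (3 * L + 1)) * YY β⁻¹ w) -
        K * ∏ m ∈ Icc (-(2 * L : ℤ)) L, hc (γ * β ^ m)) ^ 2 ∂PP ≤
      2 * K ^ 2 * (180 * (K * (3 * L + 1)) * δ ^ 2 + 20 * δ ^ 2 * (1 - β⁻¹)⁻¹ ^ 2) + 2 * K := by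
  have hβ0 : 0 < β := by linarith
  have hl0 : 0 ≤ β⁻¹ := by positivity
  have hl1 : β⁻¹ < 1 := inv_lt_one_of_one_lt₀ hβ
  have hY := measurable_Y hl0 hl1
  choose σ hσ hD using fun i : ℕ => one_scale hβ hα s ((i + 1) * (3 * L + 1))
  refine ⟨σ, hσ, ?_⟩
  set c := ∏ m ∈ Icc (-(2 * L : ℤ)) L, hc (γ * β ^ m) with hc'
  set N : ℕ → ℕ := fun i => (i + 1) * (3 * L + 1) with hN
  have hNL : ∀ i, L ≤ N i := fun i => by simp only [hN]; nlinarith
  set Z : ℕ → (ℕ → Bool) → ℝ := fun i w =>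
    cos (∑ j ∈ Ico (N i - L) (N i + 2 * L + 1), sgn (w j) * rr β γ (N i - j)) with hZ
  set f : ℕ → (ℕ → Bool) → ℝ := fun i w => σ i * cos (π * γ * β ^ N i * YY β⁻¹ w) with hf
  have mZ : ∀ i, Measurable (Z i) := fun i => by simp only [hZ]; fun_prop
  have mf : ∀ i, Measurable (f i) := fun i => by simp only [hf]; fun_prop
  have bZ : ∀ i w, |Z i w| ≤ 1 := fun i w => abs_cos_le_one _
  have bf : ∀ i w, |f i w| ≤ 1 := fun i w => by
    simp only [hf]; rw [abs_mul]; exact mul_le_one₀ (hσ i) (abs_nonneg _) (abs_cos_le_one _)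
  have iZ : ∀ i, Integrable (Z i) PP := fun i => integrable_bdd (mZ i) 1 (bZ i)
  have iZZ : ∀ i j, Integrable (fun w => Z i w * Z j w) PP := fun i j =>
    integrable_bdd ((mZ i).mul (mZ j)) 1 fun w => by
      rw [abs_mul]; exact mul_le_one₀ (bZ i w) (abs_nonneg _) (bZ j w)
  have eZ : ∀ i, ∫ w, Z i w ∂PP = c := fun i => by
    simp only [hZ]; rw [int_cos, prod_window β γ (hNL i)]
  have eZZ : ∀ i j, i ≠ j → ∫ w, Z i w * Z j w ∂PP = c * c := fun i j hij => by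
    simp only [hZ]
    rw [int_cos_mul, prod_window β γ (hNL i), prod_window β γ (hNL j)]
    rw [Finset.disjoint_left]
    intro a ha hb
    rw [mem_Ico] at ha hb
    have hi := hNL i
    have hj := hNL j
    rcases lt_or_gt_of_ne hij with h | h
    · have : N i + (3 * L + 1) ≤ N j := by simp only [hN]; nlinarith
      omega
    · have : N j + (3 * L + 1) ≤ N i := by simp only [hN]; nlinarith
      omega
  have ex : ∀ i j, ∫ w, (Z i w - c) * (Z j w - c) ∂PP = ∫ w, Z i w * Z j w ∂PP - c * c := by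
    intro i j
    have e : ∀ w, (Z i w - c) * (Z j w - c) = Z i w * Z j w - (c * Z i w + c * Z j w - c * c) :=
      fun w => by ring
    simp_rw [e]
    have j1 : Integrable (fun w => c * Z i w + c * Z j w) PP :=
      ((iZ i).const_mul c).add ((iZ j).const_mul c)
    have j2 : Integrable (fun w => c * Z i w + c * Z j w - c * c) PP :=
      j1.sub (integrable_const _)
    rw [integral_sub (iZZ i j) j2, integral_sub j1
      (integrable_const _), integral_add ((iZ i).const_mul c) ((iZ j).const_mul c),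
      integral_const_mul, integral_const_mul, eZ, eZ]
    simp
  have iZc : ∀ i j, Integrable (fun w => (Z i w - c) * (Z j w - c)) PP := fun i j => by
    have e : ∀ w, (Z i w - c) * (Z j w - c) = Z i w * Z j w - (c * Z i w + c * Z j w - c * c) :=
      fun w => by ring
    simp_rw [e]
    exact (iZZ i j).sub ((((iZ i).const_mul c).add ((iZ j).const_mul c)).sub (integrable_const _))
  have h1 : ∫ w, (∑ i ∈ range K, (Z i w - c)) ^ 2 ∂PP ≤ K * 1 + K ^ 2 * 0 := by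
    refine sq_sum_le PP K (fun i w => Z i w - c) iZc le_rfl (fun i _ => ?_) (fun i _ j _ hij => ?_)
    · rw [ex]
      have : ∫ w, Z i w * Z i w ∂PP ≤ ∫ _w, (1 : ℝ) ∂PP :=
        integral_mono (iZZ i i) (integrable_const _) fun w => by
          have := abs_le.1 (bZ i w)
          simp only
          nlinarith
      simp only [integral_const, probReal_univ, smul_eq_mul, one_mul] at this
      nlinarith [mul_self_nonneg c]
    · rw [ex, eZZ i j hij]; simp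
  have iD : ∀ i, Integrable (fun w => (f i w - Z i w) ^ 2) PP := fun i =>
    integrable_bdd (((mf i).sub (mZ i)).pow_const 2) 4 fun w => by
      have := abs_le.1 (bf i w)
      have := abs_le.1 (bZ i w)
      rw [abs_of_nonneg (sq_nonneg _)]
      nlinarith
  have i2 : Integrable (fun w => (∑ i ∈ range K, (Z i w - c)) ^ 2) PP := by
    simp_rw [sq, Finset.sum_mul_sum]
    exact integrable_finsetSum _ fun i _ => integrable_finsetSum _ fun j _ => iZc i j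
  have hpt : ∀ w, (∑ i ∈ range K, f i w - K * c) ^ 2 ≤
      2 * K * ∑ i ∈ range K, (f i w - Z i w) ^ 2 + 2 * (∑ i ∈ range K, (Z i w - c)) ^ 2 := by
    intro w
    have e : ∑ i ∈ range K, f i w - K * c =
        ∑ i ∈ range K, (f i w - Z i w) + ∑ i ∈ range K, (Z i w - c) := by
      simp [Finset.sum_sub_distrib]
    have h := sq_sum_le_card_mul_sum_sq (s := range K) (f := fun i => f i w - Z i w)
    rw [card_range] at h
    rw [e]
    nlinarith [sq_nonneg (∑ i ∈ range K, (f i w - Z i w) - ∑ i ∈ range K, (Z i w - c))]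
  have i1 : Integrable (fun w => ∑ i ∈ range K, (f i w - Z i w) ^ 2) PP :=
    integrable_finsetSum _ fun i _ => iD i
  refine (integral_mono_of_nonneg (Eventually.of_forall fun _ => sq_nonneg _)
    ((i1.const_mul _).add (i2.const_mul 2)) (Eventually.of_forall hpt)).trans ?_
  simp only [Pi.add_apply]
  rw [integral_add (i1.const_mul _) (i2.const_mul 2), integral_const_mul, integral_const_mul,
    integral_finsetSum _ fun i _ => iD i]
  have h2 : ∑ i ∈ range K, ∫ w, (f i w - Z i w) ^ 2 ∂PP ≤ ∑ _i ∈ range K,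
      (180 * (K * (3 * L + 1)) * δ ^ 2 + 20 * δ ^ 2 * (1 - β⁻¹)⁻¹ ^ 2) := by
    refine Finset.sum_le_sum fun i hi => (hD i (hNL i)).trans ?_
    have : (((i + 1) * (3 * L + 1) : ℕ) : ℝ) ≤ K * (3 * L + 1) := by
      exact_mod_cast Nat.mul_le_mul_right _ (mem_range.1 hi)
    nlinarith [sq_nonneg δ]
  rw [Finset.sum_const, card_range, nsmul_eq_mul] at h2
  have h3 := mul_le_mul_of_nonneg_left h2 (show (0 : ℝ) ≤ 2 * K by positivity)
  nlinarith

lemma markov {X : Type*} [MeasurableSpace X] (μ : Measure X) [IsFiniteMeasure μ] {f : X → ℝ}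
    (hf : Integrable (fun x => f x ^ 2) μ) {t b : ℝ} (ht : 0 < t) {A : Set X}
    (hA : ∀ x ∈ A, t ≤ |f x|) (hb : ∫ x, f x ^ 2 ∂μ ≤ t ^ 2 * b) : μ A ≤ ENNReal.ofReal b := by
  have hm := mul_meas_ge_le_integral_of_nonneg (μ := μ) (f := fun x => f x ^ 2)
    (Eventually.of_forall fun _ => sq_nonneg _) hf (t ^ 2)
  have hsub : A ⊆ {x | t ^ 2 ≤ f x ^ 2} := fun x hx => by
    have := pow_le_pow_left₀ ht.le (hA x hx) 2
    rwa [sq_abs] at this
  refine (measure_mono hsub).trans ?_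
  rw [← ofReal_measureReal (measure_ne_top _ _)]
  exact ENNReal.ofReal_le_ofReal (le_of_mul_le_mul_left (hm.trans hb) (by positivity))

lemma sep (hβ : 1 < β) (s : St β α κ γ γ₂ z L δ B) (hδ : δ ≤ 1 / 2) {K : ℝ} (hK : K * δ ≤ 1)
    (i j : ℕ) (hij : i < j) : π * γ * β ^ ((i + 1) * (3 * L + 1)) + 2 * K ≤
      π * γ * β ^ ((j + 1) * (3 * L + 1)) := by
  have hβ0 : 0 < β := by linarith
  have hbL : 1 ≤ δ * β ^ L := by
    have := s.small
    rw [zpow_neg, zpow_natCast, inv_le_iff_one_le_mul₀' (pow_pos hβ0 _)] at this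
    linarith
  have h1 : β ^ L ≤ β ^ ((i + 1) * (3 * L + 1)) := pow_le_pow_right₀ hβ.le (by nlinarith)
  have h2 : β ^ ((i + 1) * (3 * L + 1)) * β ^ L ≤ β ^ ((j + 1) * (3 * L + 1)) := by
    rw [← pow_add]; exact pow_le_pow_right₀ hβ.le (by nlinarith)
  have hp := pow_pos hβ0 L
  have h3 : 2 ≤ β ^ L := by nlinarith
  have h4 : K ≤ β ^ L := by
    by_contra h
    nlinarith [s.pos]
  have h5 : 2 ≤ π * γ := by nlinarith [Real.pi_gt_three, s.one_le]
  have h6 : β ^ ((i + 1) * (3 * L + 1)) + β ^ L ≤ β ^ ((j + 1) * (3 * L + 1)) := by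
    nlinarith
  nlinarith

lemma num_bound {K L δ ρ R : ℝ} (hK0 : 0 < K) (hL1 : 1 ≤ L) (hδ : 0 < δ) (hδ1 : δ ≤ 1)
    (hK1 : K * δ ≤ 1) (hK2 : 1 ≤ 2 * (K * δ)) (hδ4 : δ ≤ ρ ^ 4) (hLδ : L * δ ≤ ρ ^ 4) :
    2 * K ^ 2 * (180 * (K * (3 * L + 1)) * δ ^ 2 + 20 * δ ^ 2 * R ^ 2) + 2 * K ≤
      (K * ρ / 2) ^ 2 * ((5776 + 160 * R ^ 2) * ρ ^ 2) := by
  have a1 : 180 * (K * (3 * L + 1)) * δ ^ 2 ≤ 720 * ρ ^ 4 := by
    calc 180 * (K * (3 * L + 1)) * δ ^ 2 = 180 * (K * δ) * ((3 * L + 1) * δ) := by ring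
      _ ≤ 180 * 1 * (4 * (L * δ)) := mul_le_mul (by linarith) (by nlinarith) (by positivity)
          (by norm_num)
      _ ≤ _ := by linarith
  have a2 : 20 * δ ^ 2 * R ^ 2 ≤ 20 * ρ ^ 4 * R ^ 2 := by
    have : δ ^ 2 ≤ ρ ^ 4 := by nlinarith
    nlinarith [sq_nonneg R]
  have a3 : 2 * K ≤ 4 * K ^ 2 * ρ ^ 4 := by
    have : 1 ≤ 2 * (K * ρ ^ 4) := by nlinarith
    nlinarith
  have a4 := mul_le_mul_of_nonneg_left (add_le_add a1 a2) (show (0 : ℝ) ≤ 2 * K ^ 2 by positivity)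
  calc _ ≤ 2 * K ^ 2 * (720 * ρ ^ 4 + 20 * ρ ^ 4 * R ^ 2) + 4 * K ^ 2 * ρ ^ 4 := by linarith
    _ = _ := by ring

lemma test_set (hβ : 1 < β) (hα : ‖α‖ = 1) (g : Good β α κ δ B) {ρ : ℝ} (hρ : 0 < ρ)
    (hρ1 : ρ ≤ 1) (h16 : δ ≤ ρ ^ 16) (hB : ρ ≤ exp (-B)) :
    ∃ E : Set ℝ, MeasurableSet E ∧
      volume E ≤ ENNReal.ofReal (8 * (2 * (1 - β⁻¹)⁻¹ + 1) * ρ ^ 2) ∧
      PP (YY β⁻¹ ⁻¹' Eᶜ) ≤ ENNReal.ofReal ((5776 + 160 * (1 - β⁻¹)⁻¹ ^ 2) * ρ ^ 2) := by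
  obtain ⟨γ, γ₂, z, L, s, hL, hδ1, _⟩ := g
  have hβ0 : 0 < β := by linarith
  have hl0 : 0 ≤ β⁻¹ := by positivity
  have hl1 : β⁻¹ < 1 := inv_lt_one_of_one_lt₀ hβ
  have hY := measurable_Y hl0 hl1
  have hδ := s.pos
  have hYR := abs_Y_le hl0 hl1
  have hR0 : 0 < (1 - β⁻¹)⁻¹ := inv_pos.2 (by linarith)
  obtain ⟨K, hK1, hK2⟩ : ∃ K : ℕ, K * δ ≤ 1 ∧ 1 ≤ 2 * (K * δ) := by
    refine ⟨⌊1 / δ⌋₊, ?_, ?_⟩
    · have := Nat.floor_le (show 0 ≤ 1 / δ by positivity)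
      rwa [le_div_iff₀ hδ] at this
    · have := Nat.lt_floor_add_one (1 / δ)
      rw [div_lt_iff₀ hδ] at this
      linarith
  have hK0 : (0 : ℝ) < K := by
    by_contra h
    have : (K : ℝ) = 0 := le_antisymm (not_lt.1 h) (Nat.cast_nonneg _)
    rw [this] at hK2; linarith
  have hL1 : (1 : ℝ) ≤ L := by exact_mod_cast s.one_le_L (by linarith)
  have hδ4 : δ ≤ ρ ^ 4 := h16.trans (pow_le_pow_of_le_one hρ.le hρ1 (by norm_num))
  have hLδ : L * δ ≤ ρ ^ 4 := by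
    have : (L * δ) ^ 4 ≤ (ρ ^ 4) ^ 4 := by
      calc (L * δ) ^ 4 = (L ^ 4 * δ ^ 3) * δ := by ring
        _ ≤ 1 * ρ ^ 16 := mul_le_mul hL h16 hδ.le (by norm_num)
        _ = _ := by ring
    exact (pow_le_pow_iff_left₀ (by positivity) (by positivity) (by norm_num)).1 this
  obtain ⟨σ, hσ, hP⟩ := prob_bound hβ hα s K
  have hleb := leb_bound _ hR0.le K (by exact_mod_cast hK0) σ
    (fun i => π * γ * β ^ ((i + 1) * (3 * L + 1))) hσ
    (fun i => by have := s.one_le; positivity) (sep hβ s (by linarith) hK1)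
  have hcρ := hB.trans s.prod
  have hc1 : ∏ m ∈ Icc (-(2 * L : ℤ)) L, hc (γ * β ^ m) ≤ 1 :=
    Finset.prod_le_one (fun _ _ => hc_nonneg _) fun _ _ => abs_cos_le_one _
  generalize ∏ m ∈ Icc (-(2 * L : ℤ)) L, hc (γ * β ^ m) = c at hP hcρ hc1
  generalize (1 - β⁻¹)⁻¹ = R at hP hleb hR0 hYR ⊢
  obtain ⟨S, hS⟩ : ∃ S : ℝ → ℝ, S = fun x =>
    ∑ i ∈ range K, σ i * cos (π * γ * β ^ ((i + 1) * (3 * L + 1)) * x) := ⟨_, rfl⟩
  have cS : Continuous S := by rw [hS]; fun_prop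
  have bS : ∀ x, |S x| ≤ K := fun x => by
    rw [hS]
    refine (Finset.abs_sum_le_sum_abs _ _).trans ?_
    refine (Finset.sum_le_card_nsmul _ _ 1 fun i _ => ?_).trans (by simp)
    rw [abs_mul]; exact mul_le_one₀ (hσ i) (abs_nonneg _) (abs_cos_le_one _)
  have hP' : ∫ w, (S (YY β⁻¹ w) - K * c) ^ 2 ∂PP ≤
      2 * K ^ 2 * (180 * (K * (3 * L + 1)) * δ ^ 2 + 20 * δ ^ 2 * R ^ 2) + 2 * K := by
    rw [hS]; exact hP
  have hleb' : ∫ x in Set.Icc (-R) R, S x ^ 2 ≤ K * (2 * R + 1) := by rw [hS]; exact hleb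
  clear hS hP hleb
  refine ⟨Set.Icc (-R) R ∩ {x | K * ρ / 2 ≤ S x},
    measurableSet_Icc.inter (isClosed_le continuous_const cS).measurableSet, ?_, ?_⟩
  · rw [Set.inter_comm, ← Measure.restrict_apply' measurableSet_Icc]
    refine markov _ (Continuous.integrableOn_Icc (cS.pow 2)) (t := K * ρ / 2) (by positivity)
      (fun x hx => le_trans hx (le_abs_self _)) (hleb'.trans ?_)
    have : 1 ≤ 2 * (K * ρ ^ 4) := by nlinarith
    calc K * (2 * R + 1) = K * (2 * R + 1) * 1 := by ring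
      _ ≤ K * (2 * R + 1) * (2 * (K * ρ ^ 4)) := mul_le_mul_of_nonneg_left this (by positivity)
      _ = _ := by ring
  · refine markov PP (f := fun w => S (YY β⁻¹ w) - K * c)
      (integrable_bdd (((cS.measurable.comp hY).sub measurable_const).pow_const 2) ((2 * K) ^ 2)
        fun w => ?_) (t := K * ρ / 2) (by positivity) (fun w hw => ?_)
      (hP'.trans (num_bound hK0 hL1 hδ (by linarith) hK1 hK2 hδ4 hLδ))
    · have := abs_le.1 (bS (YY β⁻¹ w))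
      have h2 : K * c ≤ K := by nlinarith
      have h3 : 0 ≤ K * c := mul_nonneg hK0.le (by linarith)
      rw [abs_of_nonneg (sq_nonneg _)]
      apply sq_le_sq' <;> linarith
    · have h1 : S (YY β⁻¹ w) < K * ρ / 2 := by
        by_contra h
        exact hw ⟨abs_le.1 (hYR w), not_lt.1 h⟩
      have h2 : K * ρ ≤ K * c := mul_le_mul_of_nonneg_left hcρ hK0.le
      have := neg_le_abs (S (YY β⁻¹ w) - K * c)
      linarith

theorem singular_of_tr (hβ : 1 < β) (hα : ‖α‖ = 1) (ht : Tr β α 1 1 1)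
    (h1 : IsIntegral ℤ β) (h2 : IsIntegral ℤ β⁻¹) : IsSingular (bernoulliConv β⁻¹) := by
  have hβ0 : 0 < β := by linarith
  have hl0 : 0 ≤ β⁻¹ := by positivity
  have hl1 : β⁻¹ < 1 := inv_lt_one_of_one_lt₀ hβ
  have hY := measurable_Y hl0 hl1
  obtain ⟨κ, δ, B, hκ, g⟩ := exists_good hβ hα ht h1 h2
  have key : ∀ C : ℝ, 0 ≤ C → ∀ (n : ℕ) (ρ : ℝ), 0 < ρ → ρ ≤ (1 / 2) ^ n →
      ENNReal.ofReal (C * ρ ^ 2) ≤ ENNReal.ofReal (C * (1 / 2) ^ n) := by
    intro C hC n ρ h0 h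
    have : (1 / 2 : ℝ) ^ n ≤ 1 := pow_le_one₀ (by norm_num) (by norm_num)
    exact ENNReal.ofReal_le_ofReal (mul_le_mul_of_nonneg_left (by nlinarith) hC)
  have hsum : ∀ C : ℝ, 0 ≤ C → ∑' n : ℕ, ENNReal.ofReal (C * (1 / 2) ^ n) ≠ ⊤ := by
    intro C hC
    rw [← ENNReal.ofReal_tsum_of_nonneg (fun n => by positivity)
      (summable_geometric_two.mul_left C)]
    exact ENNReal.ofReal_ne_top
  have hR0 : 0 < (1 - β⁻¹)⁻¹ := inv_pos.2 (by linarith)
  have hE : ∀ n : ℕ, ∃ E : Set ℝ, MeasurableSet E ∧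
      volume E ≤ ENNReal.ofReal (8 * (2 * (1 - β⁻¹)⁻¹ + 1) * (1 / 2) ^ n) ∧
      PP (YY β⁻¹ ⁻¹' Eᶜ) ≤ ENNReal.ofReal ((5776 + 160 * (1 - β⁻¹)⁻¹ ^ 2) * (1 / 2) ^ n) := by
    intro n
    obtain ⟨δ', B', ρ, g', h0, hε, h16, hB⟩ := g.final hβ hα hκ (ε := (1 / 2) ^ n) (by positivity)
    obtain ⟨E, mE, e1, e2⟩ := test_set hβ hα g' h0
      (hε.trans (pow_le_one₀ (by norm_num) (by norm_num))) h16 hB
    exact ⟨E, mE, e1.trans (key _ (by positivity) n ρ h0 hε),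
      e2.trans (key _ (by positivity) n ρ h0 hε)⟩
  choose E mE e1 e2 using hE
  have mA : MeasurableSet (limsup E atTop) := MeasurableSet.measurableSet_limsup mE
  refine ⟨limsup E atTop, mA, measure_limsup_atTop_eq_zero
    (ne_top_of_le_ne_top (hsum _ (by positivity)) (ENNReal.tsum_le_tsum e1)), ?_⟩
  change (PP.map (YY β⁻¹)) _ = 1
  rw [Measure.map_apply hY mA, ← prob_compl_eq_zero_iff (hY mA)]
  have hae := ae_eventually_notMem (μ := PP) (s := fun n => YY β⁻¹ ⁻¹' (E n)ᶜ)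
    (ne_top_of_le_ne_top (hsum _ (by positivity)) (ENNReal.tsum_le_tsum e2))
  rw [ae_iff] at hae
  refine measure_mono_null (fun w hw => ?_) hae
  intro hw2
  apply hw
  rw [Set.mem_preimage, mem_limsup_iff_frequently_mem]
  exact (hw2.mono fun n hn => by simpa using hn).frequently

end Vale.Agent.P105
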