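import Vale.Agent.P105.Main

namespace Vale.Agent.P105

open Real Polynomial

lemma tr_of_quartic {a b : ℤ} {β : ℝ} {α : ℂ} (hβ : 1 < β) (hα : ‖α‖ = 1)
    (h1 : β ^ 4 + a * β ^ 3 + b * β ^ 2 + a * β + 1 = 0)
    (h2 : α ^ 4 + a * α ^ 3 + b * α ^ 2 + a * α + 1 = 0) : Tr β α 1 1 1 := by
  have hβ0 : 0 < β := by linarith
  have hα0 : α ≠ 0 := by intro h; simp [h] at hα
  have hc : α⁻¹ = (starRingEnd ℂ) α := Complex.inv_eq_conj hα
  set x := β + β⁻¹ with hx
  set y := 2 * α.re with hy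
  have hy' : (y : ℂ) = α + α⁻¹ := by rw [hc, Complex.add_conj, hy]
  have ex : x ^ 2 = -a * x - (b - 2) := by
    rw [hx]; field_simp; linear_combination h1
  have ey : y ^ 2 = -a * y - (b - 2) := by
    have : (y : ℂ) ^ 2 = -a * y - (b - 2) := by
      rw [hy']; field_simp; linear_combination h2
    exact_mod_cast this
  have hx2 : 2 < x := by
    rw [hx, ← sub_pos, show β + β⁻¹ - 2 = (β - 1) ^ 2 / β by field_simp; ring]
    have : 0 < β - 1 := by linarith
    positivity
  have hy2 : y ≤ 2 := by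
    have := (le_abs_self _).trans (Complex.abs_re_le_norm α)
    rw [hα] at this; linarith
  have hs : x + y = -a := by
    have : (x - y) * (x + y + a) = 0 := by linear_combination ex - ey
    rcases mul_eq_zero.1 this with h | h <;> linarith
  set u : ℕ → ℝ := fun n => β ^ n + β⁻¹ ^ n with hu
  set v : ℕ → ℝ := fun n => 2 * (α ^ n).re with hv
  have hv' : ∀ n, (v n : ℂ) = α ^ n + α⁻¹ ^ n := fun n => by
    rw [hc, ← map_pow, Complex.add_conj]
  have ru : ∀ n, u (n + 2) = x * u (n + 1) - u n := fun n => by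
    simp only [hu, hx, pow_succ]; field_simp; ring
  have rv : ∀ n, v (n + 2) = y * v (n + 1) - v n := fun n => by
    have : (v (n + 2) : ℂ) = y * v (n + 1) - v n := by
      rw [hv', hv', hv', hy']; simp only [pow_succ]; field_simp; ring
    exact_mod_cast this
  have key : ∀ n : ℕ, (∃ k : ℤ, u n + v n = k) ∧ (∃ k : ℤ, x * u n + y * v n = k) := by
    intro n
    induction n using Nat.twoStepInduction with
    | zero =>
      refine ⟨⟨4, by simp [hu, hv]; norm_num⟩, ⟨-2 * a, ?_⟩⟩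
      simp only [hu, hv, pow_zero, Complex.one_re]; push_cast; linarith
    | one =>
      have e1 : u 1 = x := by simp [hu, hx]
      have e2 : v 1 = y := by simp [hv, hy]
      refine ⟨⟨-a, by rw [e1, e2, hs]; simp⟩, ⟨a * a - 2 * (b - 2), ?_⟩⟩
      rw [e1, e2]; push_cast
      linear_combination ex + ey - a * hs
    | more n ih0 ih1 =>
      obtain ⟨⟨p0, hp0⟩, ⟨q0, hq0⟩⟩ := ih0
      obtain ⟨⟨p1, hp1⟩, ⟨q1, hq1⟩⟩ := ih1
      refine ⟨⟨q1 - p0, ?_⟩, ⟨-a * q1 - (b - 2) * p1 - q0, ?_⟩⟩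
      · rw [ru, rv]; push_cast; linear_combination hq1 - hp0
      · rw [ru, rv]; push_cast
        linear_combination u (n + 1) * ex + v (n + 1) * ey - a * hq1 - (b - 2) * hp1 - hq0
  intro m
  obtain ⟨n, rfl | rfl⟩ := Int.eq_nat_or_neg m
  · obtain ⟨k, hk⟩ := (key n).1
    refine ⟨k, ?_⟩
    rw [← hk]; simp [hu, hv]
  · obtain ⟨k, hk⟩ := (key n).1
    refine ⟨k, ?_⟩
    rw [← hk, neg_neg, zpow_neg α, zpow_natCast, zpow_natCast, ← inv_pow α, hc, ← map_pow, one_mul ((starRingEnd ℂ) _), Complex.conj_re]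
    simp [hu, hv]; ring

lemma integral_of_quartic {a b : ℤ} {β : ℝ}
    (h1 : β ^ 4 + a * β ^ 3 + b * β ^ 2 + a * β + 1 = 0) : IsIntegral ℤ β := by
  refine ⟨X ^ 4 + C a * X ^ 3 + C b * X ^ 2 + C a * X + 1, by monicity!, ?_⟩
  simp only [eval₂_add, eval₂_mul, eval₂_pow, eval₂_C, eval₂_X, eval₂_one]
  simpa using h1

theorem singular_of_quartic {a b : ℤ} {β : ℝ} {α : ℂ} (hβ : 1 < β) (hα : ‖α‖ = 1)
    (h1 : β ^ 4 + a * β ^ 3 + b * β ^ 2 + a * β + 1 = 0)
    (h2 : α ^ 4 + a * α ^ 3 + b * α ^ 2 + a * α + 1 = 0) : IsSingular (bernoulliConv β⁻¹) := by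
  refine singular_of_tr hβ hα (tr_of_quartic hβ hα h1 h2) (integral_of_quartic h1)
    (integral_of_quartic (a := a) (b := b) ?_)
  have : β ≠ 0 := by linarith
  field_simp
  linear_combination h1

lemma irr : Irreducible (X ^ 4 - X ^ 3 - X ^ 2 - X + 1 : ℤ[X]) := by
  have hm : (X ^ 4 - X ^ 3 - X ^ 2 - X + 1 : ℤ[X]).Monic := by monicity!
  have hd : (X ^ 4 - X ^ 3 - X ^ 2 - X + 1 : ℤ[X]).natDegree = 4 := by compute_degree!
  rw [hm.irreducible_iff_lt_natDegree_lt (by intro h; rw [h] at hd; simp at hd), hd]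
  intro q hq hdeg hdvd
  have he : ∀ k : ℤ, q.eval k ∣ k ^ 4 - k ^ 3 - k ^ 2 - k + 1 := fun k => by
    simpa using eval_dvd (x := k) hdvd
  have hl : q.coeff q.natDegree = 1 := hq
  have e0 := he 0
  have e1 := he 1
  have e2 := he (-1)
  have e3 := he 2
  have e4 := he (-2)
  simp only [Finset.mem_Ioc] at hdeg
  have h12 : q.natDegree = 1 ∨ q.natDegree = 2 := by omega
  rcases h12 with h | h
  · rw [h] at hl
    simp only [eval_eq_sum_range, h, Finset.sum_range_succ, hl] at e0 e1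
    norm_num at e0 e1
    have := Int.isUnit_iff.1 (isUnit_of_dvd_one e0)
    have := Int.isUnit_iff.1 (isUnit_of_dvd_one e1)
    omega
  · rw [h] at hl
    simp only [eval_eq_sum_range, h, Finset.sum_range_succ, hl] at e0 e1 e2 e3 e4
    norm_num at e0 e1 e2 e3 e4
    have h0 := Int.isUnit_iff.1 (isUnit_of_dvd_one e0)
    have h1 := Int.isUnit_iff.1 (isUnit_of_dvd_one e1)
    generalize q.coeff 0 = t at *
    generalize q.coeff 1 = s at *
    rcases h0 with rfl | rfl
    · have : s = -1 ∨ s = -3 := by omega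
      rcases this with rfl | rfl
      · norm_num at e4
      · norm_num at e2
    · have : s = -1 ∨ s = 1 := by omega
      rcases this with rfl | rfl
      · norm_num at e4
      · norm_num at e3

theorem exists_example : ∃ l : ℝ, 1 / 2 < l ∧ l < 1 ∧ l ^ 4 - l ^ 3 - l ^ 2 - l + 1 = 0 ∧
    ¬ IsPisot l⁻¹ ∧ IsSingular (bernoulliConv l) := by
  obtain ⟨β, ⟨hb1, hb2⟩, hb⟩ : (0 : ℝ) ∈ (fun x : ℝ => x ^ 4 - x ^ 3 - x ^ 2 - x + 1) ''
      Set.Ioo (3 / 2) 2 :=
    intermediate_value_Ioo (by norm_num) (by fun_prop) (by constructor <;> norm_num)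
  simp only at hb
  have hβ0 : 0 < β := by linarith
  set x := β + β⁻¹ with hx
  have ex : x ^ 2 = x + 3 := by rw [hx]; field_simp; linear_combination hb
  have hx0 : 0 < x := by positivity
  have hx3 : x < 3 := by nlinarith
  have hd : 0 ≤ 4 - (1 - x) ^ 2 := by nlinarith
  set α : ℂ := ⟨(1 - x) / 2, √(4 - (1 - x) ^ 2) / 2⟩ with hαd
  have hn : Complex.normSq α = 1 := by
    rw [hαd, Complex.normSq_mk]
    have := Real.mul_self_sqrt hd
    linear_combination this / 4
  have hα : ‖α‖ = 1 := by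
    rw [Complex.norm_def, hn, Real.sqrt_one]
  have hq : α ^ 2 - (1 - x) * α + 1 = 0 := by
    have h1 := Complex.mul_conj α
    have h2 := Complex.add_conj α
    rw [hn] at h1
    have h3 : (2 * α.re : ℝ) = 1 - x := by rw [hαd]; ring
    rw [h3] at h2
    push_cast at h1 h2
    linear_combination α * h2 - h1
  have ex' : (x : ℂ) ^ 2 = x + 3 := by exact_mod_cast ex
  have ha : α ^ 4 - α ^ 3 - α ^ 2 - α + 1 = 0 := by
    linear_combination (α ^ 2 - x * α + 1) * hq + α ^ 2 * ex'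
  refine ⟨β⁻¹, ?_, inv_lt_one_of_one_lt₀ (by linarith), ?_, ?_, ?_⟩
  · rw [lt_inv_comm₀ (by norm_num) hβ0]; linarith
  · field_simp; linear_combination hb
  · rw [inv_inv]
    rintro ⟨-, -, h⟩
    have hm : (X ^ 4 - X ^ 3 - X ^ 2 - X + 1 : ℤ[X]).Monic := by monicity!
    have hi := (hm.irreducible_iff_irreducible_map_fraction_map (K := ℚ)).1 irr
    have hmin := minpoly.eq_of_irreducible_of_monic (x := β) hi (by simpa using hb) (hm.map _)
    have hne : α ≠ (β : ℂ) := by
      intro h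
      rw [h, Complex.norm_real, Real.norm_eq_abs, abs_of_pos hβ0] at hα
      linarith
    have := h α (by rw [← hmin]; simpa using ha) hne
    linarith
  · exact singular_of_quartic (a := -1) (b := -1) (α := α) (by linarith) hα
      (by push_cast; linear_combination hb) (by push_cast; linear_combination ha)

end Vale.Agent.P105
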