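import Vale.Agent.P105.Coin
import Vale.Agent.P105.Base

namespace Vale.Agent.P105

open Real Finset MeasureTheory

/-- Reduced phase. -/
noncomputable def rr (β γ : ℝ) (m : ℤ) : ℝ := π * (γ * β ^ m - round (γ * β ^ m))

lemma cos_rr (β γ : ℝ) (m : ℤ) : cos (rr β γ m) = hc (γ * β ^ m) := by
  rw [← hc_sub_int _ (round (γ * β ^ m))]
  unfold hc rr
  have h := abs_le.1 (abs_sub_round (γ * β ^ m))
  rw [abs_of_nonneg]
  apply Real.cos_nonneg_of_neg_pi_div_two_le_of_le <;> nlinarith [pi_pos]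

lemma rr_sq {β γ η : ℝ} {m : ℤ} (h : Near (γ * β ^ m) η) : rr β γ m ^ 2 ≤ 10 * η ^ 2 := by
  obtain ⟨k, hk⟩ := h
  have h1 := (round_le (γ * β ^ m) k).trans hk
  unfold rr
  rw [mul_pow]
  refine mul_le_mul pi_sq_le ?_ (sq_nonneg _) (by norm_num)
  rw [← sq_abs]; exact pow_le_pow_left₀ (abs_nonneg _) h1 2

lemma prod_window (β γ : ℝ) {L N : ℕ} (h : L ≤ N) :
    ∏ j ∈ Ico (N - L) (N + 2 * L + 1), cos (rr β γ (N - j)) =
      ∏ m ∈ Icc (-(2 * L : ℤ)) L, hc (γ * β ^ m) := by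
  refine Finset.prod_nbij' (fun j => (N : ℤ) - j) (fun m => (N - m).toNat) ?_ ?_ ?_ ?_ ?_
  · intro j hj; rw [mem_Ico] at hj; rw [mem_Icc]; omega
  · intro m hm; rw [mem_Icc] at hm; rw [mem_Ico]; omega
  · intro j _; simp
  · intro m hm; rw [mem_Icc] at hm; omega
  · intro j _; exact cos_rr _ _ _

lemma sum_parity (S : Finset ℕ) (k : ℕ → ℤ) (w : ℕ → Bool) :
    ∃ J : ℤ, ∑ j ∈ S, sgn (w j) * k j = ((∑ j ∈ S, k j : ℤ) : ℝ) + 2 * J := by
  refine ⟨∑ j ∈ S, if w j then 0 else -k j, ?_⟩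
  push_cast
  rw [Finset.mul_sum, ← Finset.sum_add_distrib]
  refine Finset.sum_congr rfl fun j _ => ?_
  cases w j <;> simp [sgn]; ring

lemma cos_diff_sq (A V T : ℝ) :
    (cos (A + V + T) - cos A) ^ 2 ≤ 2 * (2 - 2 * cos V) + 2 * T ^ 2 := by
  have h1 : (cos (A + V + T) - cos (A + V)) ^ 2 ≤ T ^ 2 := by
    have := Real.abs_cos_sub_cos_le (A + V + T) (A + V)
    rw [add_sub_cancel_left] at this
    exact sq_le_sq.2 this
  have h2 : (cos (A + V) - cos A) ^ 2 ≤ 2 - 2 * cos V := by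
    have e : cos V = cos (A + V) * cos A + sin (A + V) * sin A := by
      rw [← cos_sub]; simp
    nlinarith [sin_sq_add_cos_sq A, sin_sq_add_cos_sq (A + V), sq_nonneg (sin (A + V) - sin A)]
  nlinarith [sq_nonneg ((cos (A + V + T) - cos (A + V)) - (cos (A + V) - cos A))]

variable {β : ℝ} {α : ℂ} {κ γ γ₂ : ℝ} {z : ℂ} {L : ℕ} {δ B : ℝ}

lemma one_scale (hβ : 1 < β) (hα : ‖α‖ = 1) (s : St β α κ γ γ₂ z L δ B) (N : ℕ) :
    ∃ σ : ℝ, |σ| ≤ 1 ∧ (L ≤ N → ∫ w, (σ * cos (π * γ * β ^ N * YY β⁻¹ w) -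
      cos (∑ j ∈ Ico (N - L) (N + 2 * L + 1), sgn (w j) * rr β γ (N - j))) ^ 2 ∂PP ≤
      180 * N * δ ^ 2 + 20 * δ ^ 2 * (1 - β⁻¹)⁻¹ ^ 2) := by
  have hβ0 : 0 < β := by linarith
  have hl0 : 0 ≤ β⁻¹ := by positivity
  have hl1 : β⁻¹ < 1 := inv_lt_one_of_one_lt₀ hβ
  set n := N + 2 * L + 1 with hn
  set K : ℤ := ∑ j ∈ range n, round (γ * β ^ ((N : ℤ) - j)) with hK
  refine ⟨(-1) ^ K, by simp [abs_zpow], fun hN => ?_⟩
  have hpt : ∀ w : ℕ → Bool, ((-1) ^ K * cos (π * γ * β ^ N * YY β⁻¹ w) -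
      cos (∑ j ∈ Ico (N - L) n, sgn (w j) * rr β γ (N - j))) ^ 2 ≤
      2 * (2 - 2 * cos (∑ j ∈ range (N - L), sgn (w j) * rr β γ (N - j))) +
        20 * δ ^ 2 * (1 - β⁻¹)⁻¹ ^ 2 := by
    intro w
    obtain ⟨J, hJ⟩ := sum_parity (range n) (fun j => round (γ * β ^ ((N : ℤ) - j))) w
    set T := π * (γ * β ^ ((N : ℤ) - n) * YY β⁻¹ (fun j => w (j + n))) with hT
    have e1 : ∀ j : ℕ, β ^ N * β⁻¹ ^ j = β ^ ((N : ℤ) - j) := by
      intro j
      rw [zpow_sub₀ hβ0.ne', zpow_natCast, zpow_natCast, inv_pow, div_eq_mul_inv]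
    have e2 : π * γ * β ^ N * YY β⁻¹ w =
        (∑ j ∈ Ico (N - L) n, sgn (w j) * rr β γ (N - j) +
          ∑ j ∈ range (N - L), sgn (w j) * rr β γ (N - j) + T) + K * π + J * (2 * π) := by
      rw [add_comm (∑ j ∈ Ico (N - L) n, _), Finset.range_eq_Ico,
        Finset.sum_Ico_consecutive _ (Nat.zero_le _) (by omega), ← Finset.range_eq_Ico,
        Y_split hl0 hl1 w n, hT, ← e1, mul_add, Finset.mul_sum]
      have e3 : ∑ j ∈ range n, π * γ * β ^ N * (sgn (w j) * β⁻¹ ^ j) =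
          ∑ j ∈ range n, sgn (w j) * rr β γ (N - j) +
            π * ∑ j ∈ range n, sgn (w j) * (round (γ * β ^ ((N : ℤ) - j)) : ℝ) := by
        rw [Finset.mul_sum, ← Finset.sum_add_distrib]
        refine Finset.sum_congr rfl fun j _ => ?_
        unfold rr
        rw [← e1]; ring
      rw [e3, hJ]
      ring
    rw [e2, cos_add_int_mul_two_pi, cos_add_int_mul_pi, ← mul_assoc, ← mul_zpow]
    simp only [mul_neg, mul_one, neg_neg, one_zpow, one_mul]
    refine (cos_diff_sq _ _ _).trans ?_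
    have h1 : |γ * β ^ ((N : ℤ) - n)| ≤ δ :=
      (s.abs_lo hβ).trans ((zpow_le_zpow_right₀ hβ.le (by omega)).trans s.small)
    have h2 := abs_Y_le hl0 hl1 (fun j => w (j + n))
    have h3 : (γ * β ^ ((N : ℤ) - n) * YY β⁻¹ (fun j => w (j + n))) ^ 2 ≤
        (δ * (1 - β⁻¹)⁻¹) ^ 2 := by
      rw [← sq_abs, abs_mul]
      exact pow_le_pow_left₀ (by positivity) (mul_le_mul h1 h2 (abs_nonneg _) s.pos.le) 2
    have h4 : T ^ 2 ≤ 10 * (δ * (1 - β⁻¹)⁻¹) ^ 2 := by
      rw [hT, mul_pow]; exact mul_le_mul pi_sq_le h3 (sq_nonneg _) (by norm_num)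
    nlinarith
  have hi : Integrable (fun w : ℕ → Bool =>
      2 - 2 * cos (∑ j ∈ range (N - L), sgn (w j) * rr β γ (N - j))) PP :=
    (integrable_const _).sub ((integrable_bdd (by fun_prop) 1
      fun _ => abs_cos_le_one _).const_mul 2)
  refine (integral_mono_of_nonneg (Filter.Eventually.of_forall fun _ => sq_nonneg _)
    ((hi.const_mul 2).add (integrable_const _)) (Filter.Eventually.of_forall hpt)).trans ?_
  simp only [Pi.add_apply]
  rw [integral_add (hi.const_mul 2) (integrable_const _), integral_const_mul]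
  have h1 := int_two_sub (range (N - L)) (fun j => rr β γ (N - j))
  have h2 : ∑ j ∈ range (N - L), rr β γ (N - j) ^ 2 ≤ ∑ _j ∈ range (N - L), 90 * δ ^ 2 := by
    refine Finset.sum_le_sum fun j hj => ?_
    have := rr_sq (s.near_hi hβ hα (m := N - j) (by rw [mem_range] at hj; omega))
    linarith
  rw [Finset.sum_const, card_range, nsmul_eq_mul] at h2
  have h3 : ((N - L : ℕ) : ℝ) ≤ N := by exact_mod_cast Nat.sub_le N L
  simp only [integral_const, probReal_univ, smul_eq_mul, one_mul]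
  nlinarith [sq_nonneg δ]

lemma int_cos_le (R : ℝ) (hR : 0 ≤ R) {u : ℝ} (hu : u ≠ 0) :
    |∫ x in Set.Icc (-R) R, cos (u * x)| ≤ 2 / |u| := by
  rw [integral_Icc_eq_integral_Ioc, ← intervalIntegral.integral_of_le (by linarith),
    intervalIntegral.integral_comp_mul_left (fun x => cos x) hu, integral_cos, smul_eq_mul,
    abs_mul, abs_inv, div_eq_inv_mul]
  refine mul_le_mul_of_nonneg_left ?_ (by positivity)
  have h1 := abs_le.1 (abs_sin_le_one (u * R))
  have h2 := abs_le.1 (abs_sin_le_one (u * -R))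
  rw [abs_le]; constructor <;> linarith

lemma int_cos_cos_le (R : ℝ) (hR : 0 ≤ R) {t u d : ℝ} (hd : 0 < d) (ht : 0 ≤ t)
    (h : t + d ≤ u) : |∫ x in Set.Icc (-R) R, cos (t * x) * cos (u * x)| ≤ 2 / d := by
  have e : ∀ x, cos (t * x) * cos (u * x) = (cos ((u - t) * x) + cos ((u + t) * x)) / 2 := by
    intro x
    rw [sub_mul, add_mul, cos_sub, cos_add]; ring
  simp_rw [e]
  rw [integral_div, integral_add (Continuous.integrableOn_Icc (by fun_prop))
    (Continuous.integrableOn_Icc (by fun_prop)), abs_div]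
  have h1 := int_cos_le R hR (u := u - t) (by linarith [sub_pos.2 (show t < u by linarith)])
  have h2 := int_cos_le R hR (u := u + t) (by linarith)
  rw [abs_of_pos (show 0 < u - t by linarith)] at h1
  rw [abs_of_pos (show 0 < u + t by linarith)] at h2
  have h3 : 2 / (u - t) ≤ 2 / d := div_le_div_of_nonneg_left (by norm_num) hd (by linarith)
  have h4 : 2 / (u + t) ≤ 2 / d := div_le_div_of_nonneg_left (by norm_num) hd (by linarith)
  have := abs_add_le (∫ x in Set.Icc (-R) R, cos ((u - t) * x))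
    (∫ x in Set.Icc (-R) R, cos ((u + t) * x))
  rw [abs_two]
  linarith

lemma leb_bound (R : ℝ) (hR : 0 ≤ R) (K : ℕ) (hK : 0 < K) (σ t : ℕ → ℝ) (hσ : ∀ i, |σ i| ≤ 1)
    (ht : ∀ i, 0 ≤ t i) (hsep : ∀ i j, i < j → t i + 2 * K ≤ t j) :
    ∫ x in Set.Icc (-R) R, (∑ i ∈ range K, σ i * cos (t i * x)) ^ 2 ≤ K * (2 * R + 1) := by
  have hK' : (0 : ℝ) < K := by exact_mod_cast hK
  have key : ∀ i j, i < j → |∫ x in Set.Icc (-R) R, σ i * cos (t i * x) * (σ j * cos (t j * x))|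
      ≤ 1 / K := by
    intro i j hij
    have e : ∀ x, σ i * cos (t i * x) * (σ j * cos (t j * x)) =
        σ i * σ j * (cos (t i * x) * cos (t j * x)) := fun x => by ring
    simp_rw [e]
    rw [integral_const_mul, abs_mul, abs_mul]
    have h1 := int_cos_cos_le R hR (d := 2 * K) (by positivity) (ht i) (hsep i j hij)
    have h2 : (2 : ℝ) / (2 * K) = 1 / K := by field_simp
    rw [h2] at h1
    exact (mul_le_mul (mul_le_one₀ (hσ i) (abs_nonneg _) (hσ j)) h1
      (abs_nonneg _) (by norm_num)).trans (one_mul _).le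
  refine (sq_sum_le (volume.restrict (Set.Icc (-R) R)) K (fun i x => σ i * cos (t i * x))
    (fun i j => Continuous.integrableOn_Icc (by fun_prop)) (a := 2 * R) (b := 1 / K)
    (by positivity) (fun i _ => ?_) (fun i _ j _ hij => ?_)).trans (le_of_eq ?_)
  · calc ∫ x in Set.Icc (-R) R, σ i * cos (t i * x) * (σ i * cos (t i * x))
        ≤ ∫ x in Set.Icc (-R) R, (1 : ℝ) := by
          refine integral_mono (Continuous.integrableOn_Icc (by fun_prop))
            (Continuous.integrableOn_Icc (by fun_prop)) fun x => ?_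
          have h1 : |σ i * cos (t i * x)| ≤ 1 := by
            rw [abs_mul]; exact mul_le_one₀ (hσ i) (abs_nonneg _) (abs_cos_le_one _)
          have := abs_le.1 h1
          simp only
          nlinarith
      _ = 2 * R := by
          simp only [integral_const, MeasurableSet.univ, measureReal_restrict_apply,
            Set.univ_inter, smul_eq_mul, mul_one]
          rw [Real.volume_real_Icc_of_le (by linarith)]; ring
  · rcases lt_or_gt_of_ne hij with h | h
    · exact (le_abs_self _).trans (key i j h)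
    · refine le_trans (le_of_eq ?_) ((le_abs_self _).trans (key j i h))
      congr 1; ext x; ring
  · field_simp

end Vale.Agent.P105
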