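import Mathlib

namespace Vale.Agent.P105

open Real Finset

/-- `|cos (π x)|`. -/
noncomputable def hc (x : ℝ) : ℝ := |cos (π * x)|

/-- `x` is within `η` of an integer. -/
def Near (x η : ℝ) : Prop := ∃ k : ℤ, |x - k| ≤ η

lemma hc_nonneg (x : ℝ) : 0 ≤ hc x := abs_nonneg _

lemma hc_neg (x : ℝ) : hc (-x) = hc x := by simp [hc]

lemma hc_sub_int (x : ℝ) (k : ℤ) : hc (x - k) = hc x := by
  unfold hc
  rw [mul_sub, mul_comm π (k : ℝ), Real.cos_sub_int_mul_pi, abs_mul]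
  simp [abs_zpow]

lemma hc_add_ge {x y η : ℝ} (h : Near y η) : hc x - π * η ≤ hc (x + y) := by
  obtain ⟨k, hk⟩ := h
  rw [← hc_sub_int (x + y) k]
  unfold hc
  have h1 := Real.abs_cos_sub_cos_le (π * x) (π * (x + y - k))
  have h2 : |π * x - π * (x + y - k)| = π * |y - k| := by
    rw [show π * x - π * (x + y - k) = π * (-(y - k)) by ring, abs_mul, abs_neg,
      abs_of_pos pi_pos]
  have h3 := abs_sub_abs_le_abs_sub (cos (π * x)) (cos (π * (x + y - k)))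
  have h4 : π * |y - k| ≤ π * η := mul_le_mul_of_nonneg_left hk pi_pos.le
  linarith

lemma pi_sq_le : π ^ 2 ≤ 10 := by
  have := Real.pi_lt_d2
  nlinarith [pi_pos]

lemma hc_ge_near {x η : ℝ} (h : Near x η) : 1 - 5 * η ^ 2 ≤ hc x := by
  obtain ⟨k, hk⟩ := h
  rw [← hc_sub_int x k]
  unfold hc
  have h1 := Real.one_sub_sq_div_two_le_cos (x := π * (x - k))
  have h2 : (x - k) ^ 2 ≤ η ^ 2 := by
    rw [← sq_abs]; exact pow_le_pow_left₀ (abs_nonneg _) hk 2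
  have h3 : (π * (x - k)) ^ 2 ≤ 10 * η ^ 2 := by
    rw [mul_pow]; exact mul_le_mul pi_sq_le h2 (sq_nonneg _) (by norm_num)
  have := le_abs_self (cos (π * (x - k)))
  linarith

lemma Near.neg {x η : ℝ} (h : Near x η) : Near (-x) η := by
  obtain ⟨k, hk⟩ := h
  exact ⟨-k, by rw [show -x - ((-k : ℤ) : ℝ) = -(x - k) by push_cast; ring, abs_neg]; exact hk⟩

lemma Near.add {x y η ζ : ℝ} (h : Near x η) (h' : Near y ζ) : Near (x + y) (η + ζ) := by
  obtain ⟨k, hk⟩ := h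
  obtain ⟨j, hj⟩ := h'
  refine ⟨k + j, ?_⟩
  rw [show x + y - ((k + j : ℤ) : ℝ) = (x - k) + (y - j) by push_cast; ring]
  exact (abs_add_le _ _).trans (add_le_add hk hj)

lemma Near.mono {x η ζ : ℝ} (h : Near x η) (h' : η ≤ ζ) : Near x ζ := by
  obtain ⟨k, hk⟩ := h
  exact ⟨k, hk.trans h'⟩

lemma near_of_abs {x η : ℝ} (h : |x| ≤ η) : Near x η := ⟨0, by simpa using h⟩

lemma exp_neg_two_le {z : ℝ} (h0 : 0 ≤ z) (h1 : z ≤ 1 / 2) : exp (-(2 * z)) ≤ 1 - z := by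
  have h := Real.add_one_le_exp (2 * z)
  rw [Real.exp_neg, inv_le_iff_one_le_mul₀ (exp_pos _)]
  nlinarith

/-- Trace integrality. -/
def Tr (β : ℝ) (α : ℂ) (γ γ₂ : ℝ) (z : ℂ) : Prop :=
  ∀ m : ℤ, ∃ k : ℤ, γ * β ^ m + γ₂ * β ^ (-m) + 2 * (z * α ^ m).re = k

lemma Tr.step {β : ℝ} {α : ℂ} {γ γ₂ : ℝ} {z : ℂ} (hβ : β ≠ 0) (hα : α ≠ 0)
    (h : Tr β α γ γ₂ z) (M : ℕ) :
    Tr β α (γ * (β ^ M - 1)) (γ₂ * (β ^ (-(M : ℤ)) - 1)) (z * (α ^ M - 1)) := by
  intro m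
  obtain ⟨k, hk⟩ := h (m + M)
  obtain ⟨j, hj⟩ := h m
  refine ⟨k - j, ?_⟩
  push_cast
  rw [← hk, ← hj]
  have e1 : β ^ (m + M) = β ^ m * β ^ M := by rw [zpow_add₀ hβ, zpow_natCast]
  have e2 : β ^ (-(m + M)) = β ^ (-m) * β ^ (-(M : ℤ)) := by rw [neg_add, zpow_add₀ hβ]
  have e3 : α ^ (m + M) = α ^ m * α ^ M := by rw [zpow_add₀ hα, zpow_natCast]
  have e4 : z * (α ^ M - 1) * α ^ m = z * (α ^ m * α ^ M) - z * α ^ m := by ring
  rw [e1, e2, e3, e4, Complex.sub_re]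
  ring

lemma re_le {α z : ℂ} (hα : ‖α‖ = 1) (m : ℤ) : |(z * α ^ m).re| ≤ ‖z‖ := by
  have := Complex.abs_re_le_norm (z * α ^ m)
  rwa [norm_mul, norm_zpow, hα, one_zpow, mul_one] at this

lemma Tr.near {β : ℝ} {α : ℂ} {γ γ₂ : ℝ} {z : ℂ} (hα : ‖α‖ = 1)
    (h : Tr β α γ γ₂ z) (m : ℤ) : Near (γ * β ^ m + γ₂ * β ^ (-m)) (2 * ‖z‖) := by
  obtain ⟨k, hk⟩ := h m
  refine ⟨k, ?_⟩
  rw [← hk, show γ * β ^ m + γ₂ * β ^ (-m) - (γ * β ^ m + γ₂ * β ^ (-m) + 2 * (z * α ^ m).re)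
    = -(2 * (z * α ^ m).re) by ring, abs_neg, abs_mul]
  have := re_le (z := z) hα m
  simp only [Nat.abs_ofNat]
  linarith

/-- The state of the hierarchical construction. -/
structure St (β : ℝ) (α : ℂ) (κ γ γ₂ : ℝ) (z : ℂ) (L : ℕ) (δ B : ℝ) : Prop where
  tr : Tr β α γ γ₂ z
  one_le : 1 ≤ γ
  le_pow : γ ≤ β ^ L
  g2 : |γ₂| ≤ 1
  zle : ‖z‖ ≤ δ
  pos : 0 < δ
  small : β ^ (-(L : ℤ)) ≤ δ
  margin : ∀ m ∈ Icc (-(2 * L : ℤ)) L, κ + 20 * δ ≤ hc (γ * β ^ m)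
  prod : exp (-B) ≤ ∏ m ∈ Icc (-(2 * L : ℤ)) L, hc (γ * β ^ m)

variable {β : ℝ} {α : ℂ} {κ γ γ₂ : ℝ} {z : ℂ} {L : ℕ} {δ B : ℝ}

lemma St.near_hi (hβ : 1 < β) (hα : ‖α‖ = 1) (s : St β α κ γ γ₂ z L δ B) {m : ℤ}
    (hm : (L : ℤ) ≤ m) : Near (γ * β ^ m) (3 * δ) := by
  have h1 := s.tr.near hα m
  have h2 : |γ₂ * β ^ (-m)| ≤ δ := by
    have h3 : 0 < β ^ (-m) := zpow_pos (by linarith) _
    rw [abs_mul, abs_of_pos h3]
    have : β ^ (-m) ≤ β ^ (-(L : ℤ)) := zpow_le_zpow_right₀ hβ.le (by omega)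
    nlinarith [s.g2, s.small]
  have := h1.add (near_of_abs h2).neg
  rw [add_neg_cancel_right] at this
  exact this.mono (by linarith [s.zle])

lemma St.abs_lo (hβ : 1 < β) (s : St β α κ γ γ₂ z L δ B) {m : ℤ} :
    |γ * β ^ m| ≤ β ^ (L + m) := by
  have h3 : 0 < β ^ m := zpow_pos (by linarith) _
  rw [abs_of_nonneg (by nlinarith [s.one_le]), zpow_add₀ (by linarith), zpow_natCast]
  exact mul_le_mul_of_nonneg_right s.le_pow h3.le

lemma St.near_lo (hβ : 1 < β) (s : St β α κ γ γ₂ z L δ B) {m : ℤ}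
    (hm : m ≤ -(2 * L : ℤ)) : Near (γ * β ^ m) (3 * δ) := by
  refine near_of_abs ((s.abs_lo hβ).trans ?_)
  have : β ^ (L + m) ≤ β ^ (-(L : ℤ)) := zpow_le_zpow_right₀ hβ.le (by omega)
  linarith [s.small, s.pos]

lemma St.near_out (hβ : 1 < β) (hα : ‖α‖ = 1) (s : St β α κ γ γ₂ z L δ B) {m : ℤ}
    (hm : m ∉ Icc (-(2 * L : ℤ)) L) : Near (γ * β ^ m) (3 * δ) := by
  rw [mem_Icc, not_and_or] at hm
  rcases hm with h | h
  · exact s.near_lo hβ (by omega)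
  · exact s.near_hi hβ hα (by omega)

lemma St.step (hβ : 1 < β) (hα : ‖α‖ = 1) (s : St β α κ γ γ₂ z L δ B)
    (hκ : κ ≤ 1 / 2) (hδκ : 100 * δ ≤ κ) {M : ℕ} (hM : 3 * L + 1 ≤ M) {η δ' : ℝ}
    (hη : ‖α ^ M - 1‖ ≤ η) (h1 : δ * η ≤ δ') (h2 : δ ^ 4 ≤ δ') (h3 : 2 * δ' ≤ δ) :
    St β α κ (γ * (β ^ M - 1)) (γ₂ * (β ^ (-(M : ℤ)) - 1)) (z * (α ^ M - 1)) (L + M) δ'
      (2 * (B + (3 * L + 1) * (20 * δ / κ)) + 360 * δ ^ 2 * (3 * (L + M) + 1)) := by
  have hδ := s.pos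
  have hβ0 : 0 < β := by linarith
  have hκ0 : 0 < κ := by linarith
  have hα0 : α ≠ 0 := by intro h; simp [h] at hα
  have hL : 1 ≤ δ * β ^ L := by
    have := s.small
    rw [zpow_neg, zpow_natCast, inv_le_iff_one_le_mul₀' (pow_pos hβ0 _)] at this
    linarith
  have hM2 : 2 ≤ β ^ M := by
    have : β ^ L ≤ β ^ M := pow_le_pow_right₀ hβ.le (by omega)
    nlinarith [pow_pos hβ0 L]
  have ha : ∀ m : ℤ, γ * (β ^ M - 1) * β ^ m = γ * β ^ (m + M) + -(γ * β ^ m) := by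
    intro m
    rw [zpow_add₀ hβ0.ne', zpow_natCast]; ring
  set W : Finset ℤ := Icc (-(2 * L : ℤ)) L with hW
  set W2 : Finset ℤ := Icc (-(2 * L : ℤ) - M) (L - M) with hW2
  set W' : Finset ℤ := Icc (-(2 * ((L + M : ℕ) : ℤ))) ((L + M : ℕ) : ℤ) with hW'
  have hπ : π * (3 * δ) ≤ 10 * δ := by nlinarith [Real.pi_lt_d2]
  have hA : ∀ m ∈ W, hc (γ * β ^ m) - 10 * δ ≤ hc (γ * (β ^ M - 1) * β ^ m) := by
    intro m hm
    rw [ha, add_comm, ← hc_neg (γ * β ^ m)]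
    have := hc_add_ge (x := -(γ * β ^ m)) (s.near_hi hβ hα (m := m + M)
      (by rw [hW, mem_Icc] at hm; omega))
    linarith
  have hB : ∀ m ∈ W2, hc (γ * β ^ (m + M)) - 10 * δ ≤ hc (γ * (β ^ M - 1) * β ^ m) := by
    intro m hm
    rw [ha]
    have := hc_add_ge (x := γ * β ^ (m + M)) (s.near_lo hβ (m := m)
      (by rw [hW2, mem_Icc] at hm; omega)).neg
    linarith
  have hC : ∀ m, m ∉ W → m ∉ W2 → 1 - 180 * δ ^ 2 ≤ hc (γ * (β ^ M - 1) * β ^ m) := by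
    intro m hm hm2
    rw [ha]
    have := hc_ge_near ((s.near_out hβ hα (m := m + M)
      (by rw [hW2, mem_Icc] at hm2; rw [mem_Icc]; omega)).add (s.near_out hβ hα hm).neg)
    linarith
  have hfac : ∀ x y : ℝ, κ + 20 * δ ≤ x → x - 10 * δ ≤ y → x * exp (-(20 * δ / κ)) ≤ y := by
    intro x y hx hy
    have hz : 10 * δ / κ ≤ 1 / 2 := by rw [div_le_iff₀ hκ0]; linarith
    have := exp_neg_two_le (z := 10 * δ / κ) (by positivity) hz
    rw [show 2 * (10 * δ / κ) = 20 * δ / κ by ring] at this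
    have h5 : 10 * δ ≤ x * (10 * δ / κ) := by
      rw [← mul_div_assoc, le_div_iff₀ hκ0]; nlinarith
    have h6 : x * exp (-(20 * δ / κ)) ≤ x * (1 - 10 * δ / κ) :=
      mul_le_mul_of_nonneg_left this (by linarith)
    nlinarith
  refine ⟨s.tr.step hβ0.ne' hα0 M, by nlinarith [s.one_le], ?_, ?_, ?_, ?_, ?_, ?_, ?_⟩
  · rw [pow_add]
    exact mul_le_mul s.le_pow (by linarith) (by linarith) (pow_pos hβ0 _).le
  · rw [abs_mul]
    have h5 : 0 < β ^ (-(M : ℤ)) := zpow_pos hβ0 _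
    have h6 : β ^ (-(M : ℤ)) ≤ 1 := zpow_le_one_of_nonpos₀ hβ.le (by omega)
    have h7 : |β ^ (-(M : ℤ)) - 1| ≤ 1 := by rw [abs_le]; constructor <;> linarith
    exact mul_le_one₀ s.g2 (abs_nonneg _) h7
  · rw [norm_mul]
    exact (mul_le_mul s.zle hη (norm_nonneg _) hδ.le).trans h1
  · exact lt_of_lt_of_le (by positivity) h2
  · refine le_trans ?_ h2
    calc β ^ (-((L + M : ℕ) : ℤ)) ≤ β ^ ((-(L : ℤ)) * (4 : ℕ)) :=
          zpow_le_zpow_right₀ hβ.le (by push_cast; omega)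
      _ = (β ^ (-(L : ℤ))) ^ 4 := by rw [zpow_mul, zpow_natCast]
      _ ≤ δ ^ 4 := pow_le_pow_left₀ (zpow_pos hβ0 _).le s.small 4
  · intro m _
    by_cases hm : m ∈ W
    · have := hA m hm
      have := s.margin m hm
      linarith
    by_cases hm2 : m ∈ W2
    · have := hB m hm2
      have := s.margin (m + M) (by rw [hW2, mem_Icc] at hm2; rw [mem_Icc]; omega)
      linarith
    · have := hC m hm hm2
      nlinarith
  · have hdis : Disjoint W W2 := by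
      rw [Finset.disjoint_left]
      intro m hm hm2
      rw [hW, mem_Icc] at hm; rw [hW2, mem_Icc] at hm2; omega
    have hsub : W ∪ W2 ⊆ W' := by
      intro m hm
      rw [mem_union, hW, hW2, mem_Icc, mem_Icc] at hm
      rw [hW', mem_Icc]; push_cast; omega
    rw [← Finset.prod_sdiff hsub, Finset.prod_union hdis]
    have hcard : W.card = 3 * L + 1 := by rw [hW, Int.card_Icc]; omega
    have hcard2 : W2.card = 3 * L + 1 := by rw [hW2, Int.card_Icc]; omega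
    have hcard3 : (W' \ (W ∪ W2)).card ≤ 3 * (L + M) + 1 := by
      refine (Finset.card_le_card sdiff_subset).trans ?_
      rw [hW', Int.card_Icc]; omega
    have e1 : exp (-(B + (3 * L + 1) * (20 * δ / κ))) ≤ ∏ m ∈ W, hc (γ * (β ^ M - 1) * β ^ m) := by
      calc exp (-(B + (3 * L + 1) * (20 * δ / κ)))
          = exp (-B) * exp (-(20 * δ / κ)) ^ W.card := by
            rw [← Real.exp_nat_mul, ← Real.exp_add, hcard]; congr 1; push_cast; ring
        _ ≤ (∏ m ∈ W, hc (γ * β ^ m)) * exp (-(20 * δ / κ)) ^ W.card :=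
            mul_le_mul_of_nonneg_right s.prod (by positivity)
        _ = ∏ m ∈ W, (hc (γ * β ^ m) * exp (-(20 * δ / κ))) := by
            rw [Finset.prod_mul_distrib, Finset.prod_const]
        _ ≤ _ := Finset.prod_le_prod (fun m _ => mul_nonneg (hc_nonneg _) (exp_pos _).le)
            (fun m hm => hfac _ _ (s.margin m hm) (hA m hm))
    have e2 : exp (-(B + (3 * L + 1) * (20 * δ / κ))) ≤
        ∏ m ∈ W2, hc (γ * (β ^ M - 1) * β ^ m) := by
      have hre : ∏ m ∈ W, hc (γ * β ^ m) = ∏ m ∈ W2, hc (γ * β ^ (m + M)) := by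
        symm
        refine Finset.prod_nbij' (fun m => m + M) (fun m => m - M) ?_ ?_ ?_ ?_ ?_
        · intro m hm; rw [hW2, mem_Icc] at hm; rw [hW, mem_Icc]; omega
        · intro m hm; rw [hW, mem_Icc] at hm; rw [hW2, mem_Icc]; omega
        · intro m _; simp
        · intro m _; simp
        · intro m _; rfl
      calc exp (-(B + (3 * L + 1) * (20 * δ / κ)))
          = exp (-B) * exp (-(20 * δ / κ)) ^ W2.card := by
            rw [← Real.exp_nat_mul, ← Real.exp_add, hcard2]; congr 1; push_cast; ring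
        _ ≤ (∏ m ∈ W2, hc (γ * β ^ (m + M))) * exp (-(20 * δ / κ)) ^ W2.card :=
            mul_le_mul_of_nonneg_right (hre ▸ s.prod) (by positivity)
        _ = ∏ m ∈ W2, (hc (γ * β ^ (m + M)) * exp (-(20 * δ / κ))) := by
            rw [Finset.prod_mul_distrib, Finset.prod_const]
        _ ≤ _ := Finset.prod_le_prod (fun m _ => mul_nonneg (hc_nonneg _) (exp_pos _).le)
            (fun m hm => hfac _ _ (s.margin (m + M)
              (by rw [hW2, mem_Icc] at hm; rw [mem_Icc]; omega)) (hB m hm))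
    have e3 : exp (-(360 * δ ^ 2 * (3 * (L + M) + 1))) ≤
        ∏ m ∈ W' \ (W ∪ W2), hc (γ * (β ^ M - 1) * β ^ m) := by
      have hx : exp (-(360 * δ ^ 2)) ≤ 1 - 180 * δ ^ 2 := by
        have := exp_neg_two_le (z := 180 * δ ^ 2) (by positivity) (by nlinarith)
        rwa [show 2 * (180 * δ ^ 2) = 360 * δ ^ 2 by ring] at this
      calc exp (-(360 * δ ^ 2 * (3 * (L + M) + 1)))
          ≤ exp (-(360 * δ ^ 2)) ^ (W' \ (W ∪ W2)).card := by
            rw [← Real.exp_nat_mul]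
            apply Real.exp_le_exp.2
            have : ((W' \ (W ∪ W2)).card : ℝ) ≤ 3 * (L + M) + 1 := by exact_mod_cast hcard3
            nlinarith [sq_nonneg δ]
        _ = ∏ _m ∈ W' \ (W ∪ W2), exp (-(360 * δ ^ 2)) := by rw [Finset.prod_const]
        _ ≤ _ := Finset.prod_le_prod (fun m _ => (exp_pos _).le) (fun m hm => by
            rw [mem_sdiff, mem_union, not_or] at hm
            exact hx.trans (hC m hm.2.1 hm.2.2))
    calc exp (-(2 * (B + (3 * L + 1) * (20 * δ / κ)) + 360 * δ ^ 2 * (3 * (L + M) + 1)))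
        = exp (-(360 * δ ^ 2 * (3 * (L + M) + 1))) * (exp (-(B + (3 * L + 1) * (20 * δ / κ))) *
          exp (-(B + (3 * L + 1) * (20 * δ / κ)))) := by
          rw [← Real.exp_add, ← Real.exp_add]; congr 1; ring
      _ ≤ _ := mul_le_mul e3 (mul_le_mul e1 e2 (exp_pos _).le
          (Finset.prod_nonneg fun m _ => hc_nonneg _)) (by positivity)
          (Finset.prod_nonneg fun m _ => hc_nonneg _)

end Vale.Agent.P105
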